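import Mathlib

/-!
# P125 (Markov type and superreflexivity): the definition of Markov type

`MarkovType X p K` is the definition of the problem file (Ball 1992): for every stationary
reversible Markov chain on a finite set `S` (distribution `π`, transition matrix `P`, detailed
balance `π i * P i j = π j * P j i`), every `f : S → X` and every `t ≥ 1`,
`E ‖f (Z_t) - f (Z_0)‖ ^ p ≤ K ^ p * t * E ‖f (Z_1) - f (Z_0)‖ ^ p`.
The law of `(Z_0, Z_t)` is `π i * (P ^ t) i j`.
-/

namespace Vale.Agent.H34.P125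

open scoped BigOperators

/-- `X` has Markov type `p` with constant `K`. -/
def MarkovType (X : Type*) [NormedAddCommGroup X] (p K : ℝ) : Prop :=
  ∀ (S : Type) [Fintype S] [DecidableEq S] (π : S → ℝ) (P : Matrix S S ℝ),
    (∀ i, 0 ≤ π i) → (∑ i, π i = 1) → (∀ i j, 0 ≤ P i j) → (∀ i, ∑ j, P i j = 1) →
    (∀ i j, π i * P i j = π j * P j i) →
    ∀ (f : S → X) (t : ℕ), 1 ≤ t →
      ∑ i, ∑ j, π i * (P ^ t) i j * ‖f i - f j‖ ^ p ≤
        K ^ p * (t : ℝ) * ∑ i, ∑ j, π i * P i j * ‖f i - f j‖ ^ p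

end Vale.Agent.H34.P125
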