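import Mathlib

/-!
# P125 row R2 (`Tent.lean`): the tent function on `ZMod (2 * m + 2)`

`tent m k = min (k.val) (2 * m + 2 - k.val)`: `0, 1, …, m + 1, m, …, 1` on `k.val = 0, …, 2 m + 1`.
Its increment `D k = tent m (k + 1) - tent m k` is `+1` for `k.val ≤ m` and `-1` for
`m + 1 ≤ k.val` (at `k.val = 2 m + 1` we have `k + 1 = 0`).  So `D k ≠ D (k + 1)` only for
`k.val = m` and `k.val = 2 m + 1`: at most two turning points.

Recipes.  `ZMod.val_add_one_of_lt`, `ZMod.val_add`, `ZMod.val_one`, `ZMod.val_lt`,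
`ZMod.val_injective`, `ZMod.natCast_zmod_val`; split on `k.val < 2 * m + 1` or `k.val = 2 * m + 1`
(then `k + 1 = 0`).  For `tent_turns`: the filtered set is contained in
`{(m : ZMod (2 * m + 2)), ((2 * m + 1 : ℕ) : ZMod (2 * m + 2))}` (`Finset.card_le_card`,
`Finset.card_le_two`).
Helper lemmas inside this file with the prefix `tent_`.
-/

namespace Vale.Agent.H34.P125

/-- The tent function on `ZMod (2 * m + 2)`. -/
noncomputable def tent (m : ℕ) (k : ZMod (2 * m + 2)) : ℝ :=
  min (k.val : ℝ) ((2 * m + 2 : ℝ) - k.val)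

theorem tent_val_succ (m : ℕ) (k : ZMod (2 * m + 2)) :
    (k + 1).val = if k.val < 2 * m + 1 then k.val + 1 else 0 := by
  have hlt : k.val < 2 * m + 2 := ZMod.val_lt k
  rw [ZMod.val_add, ZMod.val_one_eq_one_mod]
  have h1 : 1 % (2 * m + 2) = 1 := Nat.mod_eq_of_lt (by omega)
  rw [h1]
  split_ifs with h
  · exact Nat.mod_eq_of_lt (by omega)
  · have hk : k.val = 2 * m + 1 := by omega
    rw [hk, show 2 * m + 1 + 1 = 2 * m + 2 from rfl, Nat.mod_self]

theorem tent_inc (m : ℕ) (k : ZMod (2 * m + 2)) :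
    tent m (k + 1) - tent m k = if k.val ≤ m then 1 else -1 := by
  have hlt : k.val < 2 * m + 2 := ZMod.val_lt k
  unfold tent
  rw [tent_val_succ]
  by_cases h1 : k.val < 2 * m + 1
  · rw [if_pos h1]
    push_cast
    by_cases h2 : k.val ≤ m
    · rw [if_pos h2]
      have hv : (k.val : ℝ) ≤ m := by exact_mod_cast h2
      rw [min_eq_left (by linarith), min_eq_left (by linarith)]
      ring
    · rw [if_neg h2]
      have hv : (m : ℝ) + 1 ≤ k.val := by exact_mod_cast (by omega : m + 1 ≤ k.val)
      rw [min_eq_right (by linarith), min_eq_right (by linarith)]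
      ring
  · rw [if_neg h1]
    have hk : k.val = 2 * m + 1 := by omega
    have h2 : ¬ k.val ≤ m := by omega
    rw [if_neg h2, hk]
    push_cast
    have hm : (0 : ℝ) ≤ m := Nat.cast_nonneg m
    rw [min_eq_left (by linarith), min_eq_right (by linarith)]
    ring

theorem tent_step (m : ℕ) (k : ZMod (2 * m + 2)) :
    tent m (k + 1) - tent m k = 1 ∨ tent m (k + 1) - tent m k = -1 := by
  rw [tent_inc]
  split_ifs
  · left
    rfl
  · right
    rfl

theorem tent_turns (m : ℕ) :
    ((Finset.univ : Finset (ZMod (2 * m + 2))).filter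
      (fun k => tent m (k + 1 + 1) - tent m (k + 1) ≠ tent m (k + 1) - tent m k)).card ≤ 2 := by
  classical
  refine le_trans (Finset.card_le_card ?_)
    (Finset.card_le_two (a := ((m : ℕ) : ZMod (2 * m + 2)))
      (b := ((2 * m + 1 : ℕ) : ZMod (2 * m + 2))))
  intro k hk
  rw [Finset.mem_filter] at hk
  have hne := hk.2
  rw [tent_inc m (k + 1), tent_inc m k, tent_val_succ] at hne
  have hlt : k.val < 2 * m + 2 := ZMod.val_lt k
  rw [Finset.mem_insert, Finset.mem_singleton]
  have hcast : ((k.val : ℕ) : ZMod (2 * m + 2)) = k := ZMod.natCast_zmod_val k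
  have hcase : k.val = m ∨ k.val = 2 * m + 1 := by
    by_contra hcon
    apply hne
    by_cases h1 : k.val < 2 * m + 1
    · rw [if_pos h1]
      by_cases h2 : k.val ≤ m
      · have h3 : k.val + 1 ≤ m := by omega
        rw [if_pos h3, if_pos h2]
      · have h3 : ¬ k.val + 1 ≤ m := by omega
        rw [if_neg h3, if_neg h2]
    · exfalso
      omega
  rcases hcase with h | h
  · left
    rw [h] at hcast
    exact hcast.symm
  · right
    rw [h] at hcast
    exact hcast.symm

end Vale.Agent.H34.P125
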