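import Vale.Agent.H34.P125.TorusDefs

/-!
# P125 row R3 (`TorusOne.lean`): the one-step sum on the torus `Z × Z`

`Z` a finite abelian group, `e : Z`, `g : Z → ℝ` with `g (k + e) - g k = ±1` for all `k`
(write `D k := g (k + e) - g k`), `steps e = ![(e, 0), (-e, 0), (0, e), (0, -e)]`,
`emb g u v (k, l) = g k • u + g l • v`, `φ : X → ℝ` even.

Proof.  `Fin.sum_univ_four`; for `z = (k, l)`:
`emb z - emb (z + (e, 0)) = -(D k) • u`, `emb z - emb (z + (-e, 0)) = (D (k - e)) • u`
(because `g k - g (k - e) = D (k - e)`, as `k - e + e = k`), and the same with `l`, `v`.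
`D = ±1` and `φ` even give `φ (±u) = φ u`.  So every `z` contributes `2 * φ u + 2 * φ v`;
`Finset.sum_const`, `Finset.card_univ`, `Fintype.card_prod`.
Helper lemmas inside this file with the prefix `torusOne_`.
-/

namespace Vale.Agent.H34.P125

open scoped BigOperators

variable {Z : Type} [AddCommGroup Z] [Fintype Z] [DecidableEq Z]
variable {X : Type*} [AddCommGroup X] [Module ℝ X]

omit [Fintype Z] [DecidableEq Z] in
/-- An even function takes the same value at `a • u - b • u` as at `u` when `a - b = ±1`. -/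
theorem torusOne_phi (φ : X → ℝ) (hφ : ∀ x, φ (-x) = φ x) (u : X) (a b : ℝ)
    (h : a - b = 1 ∨ a - b = -1) : φ (a • u - b • u) = φ u := by
  rw [← sub_smul]
  rcases h with h | h
  · rw [h, one_smul]
  · rw [h, neg_smul, one_smul, hφ]

omit [Fintype Z] [DecidableEq Z] in
/-- The contribution of one point of the torus. -/
theorem torusOne_point (e : Z) (g : Z → ℝ)
    (hD : ∀ k, g (k + e) - g k = 1 ∨ g (k + e) - g k = -1)
    (φ : X → ℝ) (hφ : ∀ x, φ (-x) = φ x) (u v : X) (z : Z × Z) :
    ∑ s : Fin 4, φ (emb g u v z - emb g u v (z + steps e s)) = 2 * (φ u + φ v) := by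
  obtain ⟨k, l⟩ := z
  have s0 : steps e 0 = (e, 0) := rfl
  have s1 : steps e 1 = (-e, 0) := rfl
  have s2 : steps e 2 = (0, e) := rfl
  have s3 : steps e 3 = (0, -e) := rfl
  have hfwd : ∀ k, g k - g (k + e) = 1 ∨ g k - g (k + e) = -1 := by
    intro k
    rcases hD k with h | h
    · right; linarith
    · left; linarith
  have hbwd : ∀ k, g k - g (k + -e) = 1 ∨ g k - g (k + -e) = -1 := by
    intro k
    have h := hD (k + -e)
    rw [neg_add_cancel_right] at h
    exact h
  have t0 : φ (emb g u v (k, l) - emb g u v ((k, l) + steps e 0)) = φ u := by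
    rw [s0, Prod.mk_add_mk, add_zero]
    simp only [emb]
    rw [add_sub_add_right_eq_sub]
    exact torusOne_phi φ hφ u _ _ (hfwd k)
  have t1 : φ (emb g u v (k, l) - emb g u v ((k, l) + steps e 1)) = φ u := by
    rw [s1, Prod.mk_add_mk, add_zero]
    simp only [emb]
    rw [add_sub_add_right_eq_sub]
    exact torusOne_phi φ hφ u _ _ (hbwd k)
  have t2 : φ (emb g u v (k, l) - emb g u v ((k, l) + steps e 2)) = φ v := by
    rw [s2, Prod.mk_add_mk, add_zero]
    simp only [emb]
    rw [add_sub_add_left_eq_sub]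
    exact torusOne_phi φ hφ v _ _ (hfwd l)
  have t3 : φ (emb g u v (k, l) - emb g u v ((k, l) + steps e 3)) = φ v := by
    rw [s3, Prod.mk_add_mk, add_zero]
    simp only [emb]
    rw [add_sub_add_left_eq_sub]
    exact torusOne_phi φ hφ v _ _ (hbwd l)
  rw [Fin.sum_univ_four, t0, t1, t2, t3]
  ring

theorem torus_one_step (e : Z) (g : Z → ℝ)
    (hD : ∀ k, g (k + e) - g k = 1 ∨ g (k + e) - g k = -1)
    (φ : X → ℝ) (hφ : ∀ x, φ (-x) = φ x) (u v : X) :
    ∑ z : Z × Z, ∑ s : Fin 4, φ (emb g u v z - emb g u v (z + steps e s))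
      = 2 * (Fintype.card Z : ℝ) ^ 2 * (φ u + φ v) := by
  rw [Finset.sum_congr rfl (fun z _ => torusOne_point e g hD φ hφ u v z)]
  rw [Finset.sum_const, Finset.card_univ, Fintype.card_prod, nsmul_eq_mul]
  push_cast
  ring

end Vale.Agent.H34.P125
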