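import Vale.Agent.H34.P125.TorusDefs

/-!
# P125 row R4 (`TorusTwo.lean`): the two-step sum on the torus `Z × Z` (lower bound)

`Z` a finite abelian group, `e : Z`, `g : Z → ℝ` with `D k := g (k + e) - g k = ±1` for all `k`,
at most `T` turning points (`D (k + e) ≠ D k`), `steps e = ![(e, 0), (-e, 0), (0, e), (0, -e)]`,
`emb g u v (k, l) = g k • u + g l • v`, `φ : X → ℝ` even and nonnegative.

Proof.  Swap the sums so that `(s, s')` is outside (`Finset.sum_comm`), expand the 16 pairs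
(`Fin.sum_univ_four`), and split `∑ z : Z × Z` as `∑ k, ∑ l` (`Fintype.sum_prod_type`).
Displacement `emb z - emb (z + steps e s + steps e s')` for `z = (k, l)`:
* `(0,1), (1,0), (2,3), (3,2)`: `z + steps e s + steps e s' = z`; the term is `φ 0 ≥ 0`: drop it.
* `(0,0)`: `-(D k + D (k + e)) • u`; `(1,1)`: `(D (k - e) + D (k - e - e)) • u`.  Reindex `k`
  (`Equiv.sum_comp (Equiv.addRight _)` or `Fintype.sum_equiv`), use that `φ` is even: both sums
  over `z` equal `card Z * ∑ k, φ ((D k + D (k + e)) • u)`.  Every `k` that is not a turning point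
  has `D (k + e) = D k = ±1`, so its term is `φ (±(2 • u)) = φ (2 • u)`; the other terms are
  `≥ 0`; the number of non-turning `k` is `≥ card Z - T`.  Hence
  `∑ k, φ ((D k + D (k + e)) • u) ≥ (card Z - T) * φ (2 • u)` (also true when `card Z < T`).
  The same for `(2,2), (3,3)` with `l`, `v`.
* the 8 mixed pairs: `(0,2), (2,0)`: `-(D k • u + D l • v)`; `(0,3), (3,0)`:
  `-(D k • u - D (l - e) • v)`; `(1,2), (2,1)`: `D (k - e) • u - D l • v`; `(1,3), (3,1)`:
  `D (k - e) • u + D (l - e) • v`.  REINDEX `k` and `l` FIRST (independent shifts), so that the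
  four sums become `∑ k, ∑ l, φ (D k • u + D l • v)` (twice) and `∑ k, ∑ l, φ (D k • u - D l • v)`
  (twice), each counted for the two orders.  Only then pair: for `D k, D l ∈ {1, -1}` the two
  numbers `φ (D k • u + D l • v)`, `φ (D k • u - D l • v)` are `φ (u + v)`, `φ (u - v)` in some
  order (`φ` even), so `∑ k, ∑ l, (φ (D k • u + D l • v) + φ (D k • u - D l • v))
  = (card Z) ^ 2 * (φ (u + v) + φ (u - v))`.  (At the same position `z` the pairing is FALSE at
  turning points; it is true only after the reindexing.)  Total of the mixed pairs: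
  `4 * (card Z) ^ 2 * (φ (u + v) + φ (u - v))`.
Helper lemmas inside this file with the prefix `torusTwo_`.
-/

namespace Vale.Agent.H34.P125

open scoped BigOperators

variable {Z : Type} [AddCommGroup Z] [Fintype Z] [DecidableEq Z]
variable {X : Type*} [AddCommGroup X] [Module ℝ X]

/-- The sum over the torus of `φ` of the displacement by `(a, b)`. -/
noncomputable def torusTwo_F (g : Z → ℝ) (φ : X → ℝ) (u v : X) (a b : Z) : ℝ :=
  ∑ k : Z, ∑ l : Z, φ ((g k - g (k + a)) • u + (g l - g (l + b)) • v)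

theorem torusTwo_sum_eq (g : Z → ℝ) (φ : X → ℝ) (u v : X) (d : Z × Z) :
    ∑ z : Z × Z, φ (emb g u v z - emb g u v (z + d)) = torusTwo_F g φ u v d.1 d.2 := by
  unfold torusTwo_F
  rw [Fintype.sum_prod_type]
  refine Finset.sum_congr rfl fun k _ => Finset.sum_congr rfl fun l _ => ?_
  congr 1
  simp only [emb, Prod.fst_add, Prod.snd_add]
  module

theorem torusTwo_F_nonneg (g : Z → ℝ) (φ : X → ℝ) (hφ0 : ∀ x, 0 ≤ φ x) (u v : X) (a b : Z) :
    0 ≤ torusTwo_F g φ u v a b :=
  Finset.sum_nonneg fun _ _ => Finset.sum_nonneg fun _ _ => hφ0 _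

theorem torusTwo_F_fst (g : Z → ℝ) (φ : X → ℝ) (u v : X) (a : Z) :
    torusTwo_F g φ u v a 0 = (Fintype.card Z : ℝ) * ∑ k : Z, φ ((g k - g (k + a)) • u) := by
  unfold torusTwo_F
  simp only [add_zero, sub_self, zero_smul]
  rw [Finset.mul_sum]
  refine Finset.sum_congr rfl fun k _ => ?_
  rw [Finset.sum_const, Finset.card_univ, nsmul_eq_mul]

theorem torusTwo_F_snd (g : Z → ℝ) (φ : X → ℝ) (u v : X) (b : Z) :
    torusTwo_F g φ u v 0 b = (Fintype.card Z : ℝ) * ∑ l : Z, φ ((g l - g (l + b)) • v) := by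
  unfold torusTwo_F
  simp only [add_zero, sub_self, zero_smul, zero_add]
  rw [Finset.sum_const, Finset.card_univ, nsmul_eq_mul]

theorem torusTwo_neg_shift (g : Z → ℝ) (φ : X → ℝ) (hφ : ∀ x, φ (-x) = φ x) (w : X) (a : Z) :
    ∑ k : Z, φ ((g k - g (k + -a)) • w) = ∑ k : Z, φ ((g k - g (k + a)) • w) := by
  rw [← Equiv.sum_comp (Equiv.addRight a)]
  refine Finset.sum_congr rfl fun k _ => ?_
  simp only [Equiv.coe_addRight]
  rw [add_neg_cancel_right, ← hφ, ← neg_smul, neg_sub]

theorem torusTwo_straight (e : Z) (g : Z → ℝ)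
    (hD : ∀ k, g (k + e) - g k = 1 ∨ g (k + e) - g k = -1)
    (T : ℕ) (St : Finset Z)
    (hSt : ∀ k, k ∉ St → g (k + e + e) - g (k + e) = g (k + e) - g k)
    (hT : St.card ≤ T)
    (φ : X → ℝ) (hφ : ∀ x, φ (-x) = φ x) (hφ0 : ∀ x, 0 ≤ φ x) (w : X) :
    ((Fintype.card Z : ℝ) - T) * φ ((2 : ℝ) • w) ≤ ∑ k : Z, φ ((g k - g (k + (e + e))) • w) := by
  have h1 : ∑ k ∈ Stᶜ, φ ((g k - g (k + (e + e))) • w)
      ≤ ∑ k : Z, φ ((g k - g (k + (e + e))) • w) :=
    Finset.sum_le_sum_of_subset_of_nonneg (Finset.subset_univ _) (fun k _ _ => hφ0 _)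
  have h2 : ∀ k ∈ Stᶜ, φ ((g k - g (k + (e + e))) • w) = φ ((2 : ℝ) • w) := by
    intro k hk
    have hk' := hSt k (Finset.mem_compl.1 hk)
    rw [← add_assoc]
    rcases hD k with h | h
    · have h3 : g k - g (k + e + e) = -2 := by linarith
      rw [h3, neg_smul, hφ]
    · have h3 : g k - g (k + e + e) = 2 := by linarith
      rw [h3]
  rw [Finset.sum_congr rfl h2, Finset.sum_const, nsmul_eq_mul] at h1
  have h3 : (Stᶜ.card : ℝ) = (Fintype.card Z : ℝ) - St.card := by
    rw [Finset.card_compl, Nat.cast_sub (Finset.card_le_univ _)]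
  have h4 : (St.card : ℝ) ≤ T := by exact_mod_cast hT
  have h5 := hφ0 ((2 : ℝ) • w)
  rw [h3] at h1
  nlinarith [mul_nonneg (sub_nonneg.2 h4) h5]

theorem torusTwo_pair (φ : X → ℝ) (hφ : ∀ x, φ (-x) = φ x) (u v : X) (a b : ℝ)
    (ha : a = 1 ∨ a = -1) (hb : b = 1 ∨ b = -1) :
    φ (a • u + b • v) + φ (a • u - b • v) = φ (u + v) + φ (u - v) := by
  rcases ha with rfl | rfl <;> rcases hb with rfl | rfl
  · have h1 : (1 : ℝ) • u + (1 : ℝ) • v = u + v := by module
    have h2 : (1 : ℝ) • u - (1 : ℝ) • v = u - v := by module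
    rw [h1, h2]
  · have h1 : (1 : ℝ) • u + (-1 : ℝ) • v = u - v := by module
    have h2 : (1 : ℝ) • u - (-1 : ℝ) • v = u + v := by module
    rw [h1, h2, add_comm]
  · have h1 : (-1 : ℝ) • u + (1 : ℝ) • v = -(u - v) := by module
    have h2 : (-1 : ℝ) • u - (1 : ℝ) • v = -(u + v) := by module
    rw [h1, h2, hφ, hφ, add_comm]
  · have h1 : (-1 : ℝ) • u + (-1 : ℝ) • v = -(u + v) := by module
    have h2 : (-1 : ℝ) • u - (-1 : ℝ) • v = -(u - v) := by module
    rw [h1, h2, hφ, hφ]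

theorem torusTwo_mixed (e : Z) (g : Z → ℝ)
    (hD : ∀ k, g (k + e) - g k = 1 ∨ g (k + e) - g k = -1)
    (φ : X → ℝ) (hφ : ∀ x, φ (-x) = φ x) (u v : X) (A : Z → ℝ)
    (hA : ∀ k, A k = 1 ∨ A k = -1) :
    ∑ k : Z, ∑ l : Z, φ (A k • u + (g l - g (l + e)) • v)
        + ∑ k : Z, ∑ l : Z, φ (A k • u + (g l - g (l + -e)) • v)
      = (Fintype.card Z : ℝ) ^ 2 * (φ (u + v) + φ (u - v)) := by
  have hB : ∀ l, g l - g (l + e) = 1 ∨ g l - g (l + e) = -1 := by
    intro l
    rcases hD l with h | h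
    · right; linarith
    · left; linarith
  have h1 : ∀ k : Z, ∑ l : Z, φ (A k • u + (g l - g (l + -e)) • v)
      = ∑ l : Z, φ (A k • u - (g l - g (l + e)) • v) := by
    intro k
    rw [← Equiv.sum_comp (Equiv.addRight e)]
    refine Finset.sum_congr rfl fun l _ => ?_
    simp only [Equiv.coe_addRight]
    rw [add_neg_cancel_right]
    congr 1
    module
  rw [Finset.sum_congr rfl fun k _ => h1 k, ← Finset.sum_add_distrib]
  have h2 : ∀ k : Z, ∑ l : Z, φ (A k • u + (g l - g (l + e)) • v)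
      + ∑ l : Z, φ (A k • u - (g l - g (l + e)) • v)
      = (Fintype.card Z : ℝ) * (φ (u + v) + φ (u - v)) := by
    intro k
    rw [← Finset.sum_add_distrib]
    rw [Finset.sum_congr rfl fun l _ => torusTwo_pair φ hφ u v _ _ (hA k) (hB l)]
    rw [Finset.sum_const, Finset.card_univ, nsmul_eq_mul]
  rw [Finset.sum_congr rfl fun k _ => h2 k, Finset.sum_const, Finset.card_univ, nsmul_eq_mul]
  ring

theorem torus_two_step (e : Z) (g : Z → ℝ)
    (hD : ∀ k, g (k + e) - g k = 1 ∨ g (k + e) - g k = -1)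
    (T : ℕ) (hT : ((Finset.univ : Finset Z).filter
      (fun k => g (k + e + e) - g (k + e) ≠ g (k + e) - g k)).card ≤ T)
    (φ : X → ℝ) (hφ : ∀ x, φ (-x) = φ x) (hφ0 : ∀ x, 0 ≤ φ x) (u v : X) :
    2 * (Fintype.card Z : ℝ) * ((Fintype.card Z : ℝ) - T) * (φ ((2 : ℝ) • u) + φ ((2 : ℝ) • v))
        + 4 * (Fintype.card Z : ℝ) ^ 2 * (φ (u + v) + φ (u - v))
      ≤ ∑ z : Z × Z, ∑ s : Fin 4, ∑ s' : Fin 4,
          φ (emb g u v z - emb g u v (z + steps e s + steps e s')) := by
  classical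
  have hswap : ∑ z : Z × Z, ∑ s : Fin 4, ∑ s' : Fin 4,
        φ (emb g u v z - emb g u v (z + steps e s + steps e s'))
      = ∑ s : Fin 4, ∑ s' : Fin 4,
        torusTwo_F g φ u v (steps e s + steps e s').1 (steps e s + steps e s').2 := by
    rw [Finset.sum_comm]
    refine Finset.sum_congr rfl fun s _ => ?_
    rw [Finset.sum_comm]
    refine Finset.sum_congr rfl fun s' _ => ?_
    rw [← torusTwo_sum_eq]
    refine Finset.sum_congr rfl fun z _ => ?_
    rw [add_assoc]
  have hSt : ∀ k, k ∉ (Finset.univ : Finset Z).filter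
      (fun k => g (k + e + e) - g (k + e) ≠ g (k + e) - g k) →
      g (k + e + e) - g (k + e) = g (k + e) - g k := by
    intro k hk
    by_contra hne
    exact hk (Finset.mem_filter.2 ⟨Finset.mem_univ _, hne⟩)
  have su := torusTwo_straight e g hD T _ hSt hT φ hφ hφ0 u
  have sv := torusTwo_straight e g hD T _ hSt hT φ hφ hφ0 v
  have hN : (0 : ℝ) ≤ (Fintype.card Z : ℝ) := Nat.cast_nonneg _
  have f1 : (Fintype.card Z : ℝ) * (((Fintype.card Z : ℝ) - T) * φ ((2 : ℝ) • u))
      ≤ torusTwo_F g φ u v (e + e) 0 := by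
    rw [torusTwo_F_fst]
    exact mul_le_mul_of_nonneg_left su hN
  have f2 : (Fintype.card Z : ℝ) * (((Fintype.card Z : ℝ) - T) * φ ((2 : ℝ) • u))
      ≤ torusTwo_F g φ u v (-e + -e) 0 := by
    rw [torusTwo_F_fst, ← neg_add, torusTwo_neg_shift g φ hφ]
    exact mul_le_mul_of_nonneg_left su hN
  have f3 : (Fintype.card Z : ℝ) * (((Fintype.card Z : ℝ) - T) * φ ((2 : ℝ) • v))
      ≤ torusTwo_F g φ u v 0 (e + e) := by
    rw [torusTwo_F_snd]
    exact mul_le_mul_of_nonneg_left sv hN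
  have f4 : (Fintype.card Z : ℝ) * (((Fintype.card Z : ℝ) - T) * φ ((2 : ℝ) • v))
      ≤ torusTwo_F g φ u v 0 (-e + -e) := by
    rw [torusTwo_F_snd, ← neg_add, torusTwo_neg_shift g φ hφ]
    exact mul_le_mul_of_nonneg_left sv hN
  have f5 := torusTwo_F_nonneg g φ hφ0 u v 0 0
  have hA1 : ∀ k, g k - g (k + e) = 1 ∨ g k - g (k + e) = -1 := by
    intro k
    rcases hD k with h | h
    · right; linarith
    · left; linarith
  have hA2 : ∀ k, g k - g (k + -e) = 1 ∨ g k - g (k + -e) = -1 := by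
    intro k
    have h := hD (k + -e)
    rw [neg_add_cancel_right] at h
    exact h
  have f6 : torusTwo_F g φ u v e e + torusTwo_F g φ u v e (-e)
      = (Fintype.card Z : ℝ) ^ 2 * (φ (u + v) + φ (u - v)) :=
    torusTwo_mixed e g hD φ hφ u v (fun k => g k - g (k + e)) hA1
  have f7 : torusTwo_F g φ u v (-e) e + torusTwo_F g φ u v (-e) (-e)
      = (Fintype.card Z : ℝ) ^ 2 * (φ (u + v) + φ (u - v)) :=
    torusTwo_mixed e g hD φ hφ u v (fun k => g k - g (k + -e)) hA2
  have e00 : steps e 0 + steps e 0 = (e + e, 0) := by simp [steps]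
  have e01 : steps e 0 + steps e 1 = (0, 0) := by simp [steps]
  have e02 : steps e 0 + steps e 2 = (e, e) := by simp [steps]
  have e03 : steps e 0 + steps e 3 = (e, -e) := by simp [steps]
  have e10 : steps e 1 + steps e 0 = (0, 0) := by simp [steps]
  have e11 : steps e 1 + steps e 1 = (-e + -e, 0) := by simp [steps]
  have e12 : steps e 1 + steps e 2 = (-e, e) := by simp [steps]
  have e13 : steps e 1 + steps e 3 = (-e, -e) := by simp [steps]
  have e20 : steps e 2 + steps e 0 = (e, e) := by simp [steps]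
  have e21 : steps e 2 + steps e 1 = (-e, e) := by simp [steps]
  have e22 : steps e 2 + steps e 2 = (0, e + e) := by simp [steps]
  have e23 : steps e 2 + steps e 3 = (0, 0) := by simp [steps]
  have e30 : steps e 3 + steps e 0 = (e, -e) := by simp [steps]
  have e31 : steps e 3 + steps e 1 = (-e, -e) := by simp [steps]
  have e32 : steps e 3 + steps e 2 = (0, 0) := by simp [steps]
  have e33 : steps e 3 + steps e 3 = (0, -e + -e) := by simp [steps]
  rw [hswap]
  simp only [Fin.sum_univ_four, e00, e01, e02, e03, e10, e11, e12, e13, e20, e21, e22, e23,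
    e30, e31, e32, e33]
  linarith

end Vale.Agent.H34.P125
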