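import Mathlib

/-!
# P125 row R1 (`Walk.lean`): the random walk on a finite abelian group with a finite step family

`walk σ` is the transition matrix of the walk on `G` whose step is `σ s` for a uniform `s : ι`:
`walk σ z z' = (card ι)⁻¹ * #{s | z + σ s = z'}`.

Recipes.
* `walk_sum_mul`: unfold, `Finset.mul_sum`, swap the two sums (`Finset.sum_comm`),
  `Finset.sum_ite_eq`.
* `walk_row_sum`: `walk_sum_mul` with `ψ = 1`; `card ι ≠ 0`.
* `walk_symm`: reindex the sum over `s` by `τ` (`Equiv.sum_comp`); `z' + -σ s = z ↔ z + σ s = z'`.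
* `walk_sq_sum_mul`: `pow_two`, `Matrix.mul_apply`, swap sums, `walk_sum_mul` twice.
Helper lemmas inside this file with the prefix `walk_`.
-/

namespace Vale.Agent.H34.P125

open scoped BigOperators

variable {G : Type} [AddCommGroup G] [Fintype G] [DecidableEq G] {ι : Type} [Fintype ι]

/-- Transition matrix of the random walk on `G` with step `σ s`, `s : ι` uniform. -/
noncomputable def walk (σ : ι → G) : Matrix G G ℝ :=
  fun z z' => (Fintype.card ι : ℝ)⁻¹ * ∑ s : ι, if z + σ s = z' then (1 : ℝ) else 0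

theorem walk_nonneg (σ : ι → G) (z z' : G) : 0 ≤ walk σ z z' := by
  unfold walk
  exact mul_nonneg (inv_nonneg.mpr (Nat.cast_nonneg _))
    (Finset.sum_nonneg (fun s _ => by split_ifs <;> norm_num))

theorem walk_sum_mul (σ : ι → G) (ψ : G → ℝ) (z : G) :
    ∑ z', walk σ z z' * ψ z' = (Fintype.card ι : ℝ)⁻¹ * ∑ s, ψ (z + σ s) := by
  unfold walk
  have h : ∀ z' : G, ((Fintype.card ι : ℝ)⁻¹ * ∑ s : ι, if z + σ s = z' then (1 : ℝ) else 0) *
      ψ z' = (Fintype.card ι : ℝ)⁻¹ * ∑ s : ι, if z + σ s = z' then ψ z' else 0 := by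
    intro z'
    rw [mul_assoc, Finset.sum_mul]
    congr 1
    apply Finset.sum_congr rfl
    intro s _
    split_ifs <;> simp
  rw [Finset.sum_congr rfl (fun z' _ => h z'), ← Finset.mul_sum, Finset.sum_comm]
  congr 1
  apply Finset.sum_congr rfl
  intro s _
  rw [Finset.sum_ite_eq]
  simp

theorem walk_row_sum [Nonempty ι] (σ : ι → G) (z : G) : ∑ z', walk σ z z' = 1 := by
  have h := walk_sum_mul σ (fun _ => (1 : ℝ)) z
  simp only [mul_one] at h
  rw [h, Finset.sum_const, Finset.card_univ, nsmul_eq_mul, mul_one]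
  have hc : (Fintype.card ι : ℝ) ≠ 0 := by exact_mod_cast Fintype.card_ne_zero
  exact inv_mul_cancel₀ hc

theorem walk_symm (σ : ι → G) (τ : ι ≃ ι) (hτ : ∀ s, σ (τ s) = -σ s) (z z' : G) :
    walk σ z z' = walk σ z' z := by
  unfold walk
  congr 1
  rw [← Equiv.sum_comp τ (fun s => if z' + σ s = z then (1 : ℝ) else 0)]
  apply Finset.sum_congr rfl
  intro s _
  rw [hτ s]
  have hiff : (z + σ s = z') ↔ (z' + -σ s = z) := by
    constructor
    · intro h
      rw [← h]
      abel
    · intro h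
      rw [← h]
      abel
  simp only [hiff]

theorem walk_sq_sum_mul (σ : ι → G) (ψ : G → ℝ) (z : G) :
    ∑ z', (walk σ ^ 2) z z' * ψ z' =
      (Fintype.card ι : ℝ)⁻¹ ^ 2 * ∑ s, ∑ s', ψ (z + σ s + σ s') := by
  have h1 : ∀ z' : G, (walk σ ^ 2) z z' * ψ z' =
      ∑ w, walk σ z w * (walk σ w z' * ψ z') := by
    intro z'
    rw [pow_two, Matrix.mul_apply, Finset.sum_mul]
    apply Finset.sum_congr rfl
    intro w _
    ring
  rw [Finset.sum_congr rfl (fun z' _ => h1 z'), Finset.sum_comm]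
  have h2 : ∀ w : G, ∑ z', walk σ z w * (walk σ w z' * ψ z') =
      walk σ z w * ((Fintype.card ι : ℝ)⁻¹ * ∑ s', ψ (w + σ s')) := by
    intro w
    rw [← Finset.mul_sum, walk_sum_mul]
  rw [Finset.sum_congr rfl (fun w _ => h2 w)]
  have h3 := walk_sum_mul σ (fun w => (Fintype.card ι : ℝ)⁻¹ * ∑ s', ψ (w + σ s')) z
  rw [h3, ← Finset.mul_sum, ← mul_assoc, pow_two]

end Vale.Agent.H34.P125
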