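import Vale.Agent.H34.P125.Defs
import Vale.Agent.H34.P125.Walk
import Vale.Agent.H34.P125.Tent
import Vale.Agent.H34.P125.TorusOne
import Vale.Agent.H34.P125.TorusTwo

/-!
# P125: Markov type with a small constant forces uniform non-squareness (assembly)

From the rows `Walk`, `Tent`, `TorusOne`, `TorusTwo`: if `X` has Markov type `p` with constant `K` then
`‖u + v‖ ^ p + ‖u - v‖ ^ p ≤ (4 * K ^ p - 2 ^ (p - 1)) * (‖u‖ ^ p + ‖v‖ ^ p)` for all `u, v`.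
-/

namespace Vale.Agent.H34.P125

open scoped BigOperators

variable {X : Type*} [NormedAddCommGroup X] [NormedSpace ℝ X]

/-- The involution `0 ↔ 1`, `2 ↔ 3` of the four steps. -/
def stepSwap : Fin 4 ≃ Fin 4 where
  toFun := ![1, 0, 3, 2]
  invFun := ![1, 0, 3, 2]
  left_inv := by decide
  right_inv := by decide

theorem steps_stepSwap {Z : Type} [AddCommGroup Z] (e : Z) (s : Fin 4) :
    steps e (stepSwap s) = -steps e s := by
  fin_cases s <;> simp [steps, stepSwap]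

theorem main_torus {p K : ℝ} (hX : MarkovType X p K)
    {Z : Type} [AddCommGroup Z] [Fintype Z] [DecidableEq Z] (e : Z) (g : Z → ℝ)
    (hD : ∀ k, g (k + e) - g k = 1 ∨ g (k + e) - g k = -1) (T : ℕ)
    (hT : ((Finset.univ : Finset Z).filter
      (fun k => g (k + e + e) - g (k + e) ≠ g (k + e) - g k)).card ≤ T) (u v : X) :
    ‖u + v‖ ^ p + ‖u - v‖ ^ p ≤
      (4 * K ^ p - 2 ^ (p - 1) * (1 - (T : ℝ) / (Fintype.card Z : ℝ))) *
        (‖u‖ ^ p + ‖v‖ ^ p) := by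
  have hNpos : (0 : ℝ) < (Fintype.card Z : ℝ) := by
    have h : 0 < Fintype.card Z := Fintype.card_pos
    exact_mod_cast h
  have hφ : ∀ x : X, ‖-x‖ ^ p = ‖x‖ ^ p := fun x => by rw [norm_neg]
  have hφ0 : ∀ x : X, 0 ≤ ‖x‖ ^ p := fun x => Real.rpow_nonneg (norm_nonneg x) p
  have hφ2 : ∀ x : X, ‖(2 : ℝ) • x‖ ^ p = 2 ^ p * ‖x‖ ^ p := fun x => by
    rw [norm_smul, Real.norm_eq_abs, abs_of_pos (by norm_num : (0 : ℝ) < 2),
      Real.mul_rpow (by norm_num) (norm_nonneg x)]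
  have h1 := torus_one_step e g hD (fun x : X => ‖x‖ ^ p) hφ u v
  have h2 := torus_two_step e g hD T hT (fun x : X => ‖x‖ ^ p) hφ hφ0 u v
  simp only [hφ2] at h2
  have hπsum : ∑ _z : Z × Z, ((Fintype.card Z : ℝ) ^ 2)⁻¹ = 1 := by
    rw [Finset.sum_const, Finset.card_univ, Fintype.card_prod, nsmul_eq_mul]
    push_cast
    field_simp
  have hPsymm : ∀ z z' : Z × Z, walk (steps e) z z' = walk (steps e) z' z :=
    walk_symm (steps e) stepSwap (steps_stepSwap e)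
  have key := hX (Z × Z) (fun _ => ((Fintype.card Z : ℝ) ^ 2)⁻¹) (walk (steps e))
    (fun _ => by positivity) hπsum (walk_nonneg (steps e)) (walk_row_sum (steps e))
    (fun z z' => by rw [hPsymm]) (emb g u v) 2 (by norm_num)
  have hL : ∀ i : Z × Z,
      ∑ j, ((Fintype.card Z : ℝ) ^ 2)⁻¹ * (walk (steps e) ^ 2) i j *
          ‖emb g u v i - emb g u v j‖ ^ p
        = ((Fintype.card Z : ℝ) ^ 2)⁻¹ * ((4 : ℝ)⁻¹ ^ 2 * ∑ s : Fin 4, ∑ s' : Fin 4,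
            ‖emb g u v i - emb g u v (i + steps e s + steps e s')‖ ^ p) := by
    intro i
    have h := walk_sq_sum_mul (steps e) (fun j => ‖emb g u v i - emb g u v j‖ ^ p) i
    simp only [Fintype.card_fin, Nat.cast_ofNat] at h
    rw [← h, Finset.mul_sum]
    exact Finset.sum_congr rfl (fun j _ => by ring)
  have hR : ∀ i : Z × Z,
      ∑ j, ((Fintype.card Z : ℝ) ^ 2)⁻¹ * walk (steps e) i j *
          ‖emb g u v i - emb g u v j‖ ^ p
        = ((Fintype.card Z : ℝ) ^ 2)⁻¹ * ((4 : ℝ)⁻¹ * ∑ s : Fin 4,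
            ‖emb g u v i - emb g u v (i + steps e s)‖ ^ p) := by
    intro i
    have h := walk_sum_mul (steps e) (fun j => ‖emb g u v i - emb g u v j‖ ^ p) i
    simp only [Fintype.card_fin, Nat.cast_ofNat] at h
    rw [← h, Finset.mul_sum]
    exact Finset.sum_congr rfl (fun j _ => by ring)
  simp only [hL, hR] at key
  rw [← Finset.mul_sum, ← Finset.mul_sum, ← Finset.mul_sum, ← Finset.mul_sum, h1] at key
  -- key : N⁻² * (4⁻² * S₂) ≤ K^p * 2 * (N⁻² * (4⁻¹ * (2 N² (φ u + φ v))))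
  generalize ∑ z : Z × Z, ∑ s : Fin 4, ∑ s' : Fin 4,
    ‖emb g u v z - emb g u v (z + steps e s + steps e s')‖ ^ p = S2 at key h2
  generalize (Fintype.card Z : ℝ) = N at hNpos key h2 ⊢
  generalize ‖u + v‖ ^ p + ‖u - v‖ ^ p = A at h2 ⊢
  generalize ‖u‖ ^ p = a at key h2 ⊢
  generalize ‖v‖ ^ p = b at key h2 ⊢
  have h2p : (2 : ℝ) ^ (p - 1) = 2 ^ p / 2 := by
    rw [Real.rpow_sub_one (by norm_num)]
  rw [h2p]
  generalize (2 : ℝ) ^ p = c at h2 ⊢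
  generalize K ^ p = Kp at key ⊢
  have hN2 : (0 : ℝ) < N ^ 2 := by positivity
  have key2 : S2 ≤ 16 * Kp * N ^ 2 * (a + b) := by
    have e1 : (N ^ 2)⁻¹ * ((4 : ℝ)⁻¹ ^ 2 * S2) = S2 / (16 * N ^ 2) := by
      field_simp
      ring
    have e2 : Kp * ((2 : ℕ) : ℝ) * ((N ^ 2)⁻¹ * ((4 : ℝ)⁻¹ * (2 * N ^ 2 * (a + b))))
        = Kp * (a + b) := by
      push_cast
      field_simp
      ring
    rw [e1, e2, div_le_iff₀ (by positivity)] at key
    linarith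
  have h3 : 4 * N ^ 2 * A ≤ 4 * N ^ 2 * ((4 * Kp - c / 2 * (1 - (T : ℝ) / N)) * (a + b)) := by
    have e3 : 4 * N ^ 2 * ((4 * Kp - c / 2 * (1 - (T : ℝ) / N)) * (a + b))
        = 16 * Kp * N ^ 2 * (a + b) - 2 * N * (N - T) * (c * a + c * b) := by
      field_simp
      ring
    rw [e3]
    linarith
  exact le_of_mul_le_mul_left h3 (by positivity)

theorem main_m {p K : ℝ} (hX : MarkovType X p K) (m : ℕ) (u v : X) :
    ‖u + v‖ ^ p + ‖u - v‖ ^ p ≤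
      (4 * K ^ p - 2 ^ (p - 1) * (1 - 1 / ((m : ℝ) + 1))) * (‖u‖ ^ p + ‖v‖ ^ p) := by
  have h := main_torus hX (1 : ZMod (2 * m + 2)) (tent m) (tent_step m) 2 (tent_turns m) u v
  have hcard : (Fintype.card (ZMod (2 * m + 2)) : ℝ) = 2 * ((m : ℝ) + 1) := by
    rw [ZMod.card]
    push_cast
    ring
  rw [hcard] at h
  have h2 : ((2 : ℕ) : ℝ) / (2 * ((m : ℝ) + 1)) = 1 / ((m : ℝ) + 1) := by
    have hm1 : (0 : ℝ) < (m : ℝ) + 1 := by positivity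
    push_cast
    field_simp
  rw [h2] at h
  exact h

/-- If `X` has Markov type `p` with constant `K`, then
`‖u + v‖ ^ p + ‖u - v‖ ^ p ≤ (4 * K ^ p - 2 ^ (p - 1)) * (‖u‖ ^ p + ‖v‖ ^ p)`. -/
theorem main_ineq {p K : ℝ} (hX : MarkovType X p K) (u v : X) :
    ‖u + v‖ ^ p + ‖u - v‖ ^ p ≤ (4 * K ^ p - 2 ^ (p - 1)) * (‖u‖ ^ p + ‖v‖ ^ p) := by
  have hB0 : 0 ≤ ‖u‖ ^ p + ‖v‖ ^ p :=
    add_nonneg (Real.rpow_nonneg (norm_nonneg u) p) (Real.rpow_nonneg (norm_nonneg v) p)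
  have hc : 0 ≤ (2 : ℝ) ^ (p - 1) := Real.rpow_nonneg (by norm_num) _
  apply le_of_forall_pos_le_add
  intro ε hε
  obtain ⟨m, hm⟩ := exists_nat_gt ((2 : ℝ) ^ (p - 1) * (‖u‖ ^ p + ‖v‖ ^ p) / ε)
  have h := main_m hX m u v
  generalize ‖u + v‖ ^ p + ‖u - v‖ ^ p = A at h ⊢
  generalize ‖u‖ ^ p + ‖v‖ ^ p = B at h hm hB0 ⊢
  generalize (2 : ℝ) ^ (p - 1) = c at h hm hc ⊢
  have hm1 : (0 : ℝ) < (m : ℝ) + 1 := by positivity
  have h4 : c * B / ((m : ℝ) + 1) ≤ ε := by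
    rw [div_le_iff₀ hm1]
    have h5 : c * B < m * ε := by rwa [div_lt_iff₀ hε] at hm
    nlinarith
  have h6 : (4 * K ^ p - c * (1 - 1 / ((m : ℝ) + 1))) * B
      = (4 * K ^ p - c) * B + c * B / ((m : ℝ) + 1) := by
    field_simp
    ring
  linarith

/-- Explicit form: for `u, v` in the unit ball, `min ‖u + v‖ ‖u - v‖` is at most
`(max (4 * K ^ p - 2 ^ (p - 1)) 0) ^ (1 / p)`. -/
theorem main_min {p K : ℝ} (hp : 0 < p) (hX : MarkovType X p K) (u v : X)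
    (hu : ‖u‖ ≤ 1) (hv : ‖v‖ ≤ 1) :
    min ‖u + v‖ ‖u - v‖ ≤ (max (4 * K ^ p - 2 ^ (p - 1)) 0) ^ (1 / p) := by
  have hc0 : 0 ≤ max (4 * K ^ p - 2 ^ (p - 1)) 0 := le_max_right _ _
  have hcle : 4 * K ^ p - 2 ^ (p - 1) ≤ max (4 * K ^ p - 2 ^ (p - 1)) 0 := le_max_left _ _
  have h := main_ineq hX u v
  generalize max (4 * K ^ p - 2 ^ (p - 1)) 0 = c at hc0 hcle ⊢
  have hp' : 0 < 1 / p := by positivity
  have key : ∀ w : X, ‖w‖ ^ p ≤ c → ‖w‖ ≤ c ^ (1 / p) := by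
    intro w hw
    have h3 : (‖w‖ ^ p) ^ (1 / p) ≤ c ^ (1 / p) :=
      Real.rpow_le_rpow (Real.rpow_nonneg (norm_nonneg w) p) hw hp'.le
    rwa [← Real.rpow_mul (norm_nonneg w), mul_one_div_cancel hp.ne', Real.rpow_one] at h3
  have hu' : ‖u‖ ^ p ≤ 1 := Real.rpow_le_one (norm_nonneg u) hu hp.le
  have hv' : ‖v‖ ^ p ≤ 1 := Real.rpow_le_one (norm_nonneg v) hv hp.le
  have hu0 : 0 ≤ ‖u‖ ^ p := Real.rpow_nonneg (norm_nonneg u) p
  have hv0 : 0 ≤ ‖v‖ ^ p := Real.rpow_nonneg (norm_nonneg v) p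
  have hsum : ‖u + v‖ ^ p + ‖u - v‖ ^ p ≤ 2 * c := by
    have h1 : (4 * K ^ p - 2 ^ (p - 1)) * (‖u‖ ^ p + ‖v‖ ^ p) ≤ c * (‖u‖ ^ p + ‖v‖ ^ p) :=
      mul_le_mul_of_nonneg_right hcle (by linarith)
    have h2 : c * (‖u‖ ^ p + ‖v‖ ^ p) ≤ c * 2 := mul_le_mul_of_nonneg_left (by linarith) hc0
    linarith
  by_cases h1 : ‖u + v‖ ^ p ≤ c
  · exact (min_le_left _ _).trans (key _ h1)
  · rw [not_le] at h1
    exact (min_le_right _ _).trans (key _ (by linarith))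

/-- Below the threshold the explicit bound of `main_min` is smaller than `2`. -/
theorem main_bound_lt_two {p K : ℝ} (hp : 0 < p) (hK : 4 * K ^ p - 2 ^ (p - 1) < 2 ^ p) :
    (max (4 * K ^ p - 2 ^ (p - 1)) 0) ^ (1 / p) < 2 := by
  have hc0 : 0 ≤ max (4 * K ^ p - 2 ^ (p - 1)) 0 := le_max_right _ _
  have hc2 : max (4 * K ^ p - 2 ^ (p - 1)) 0 < 2 ^ p :=
    max_lt hK (Real.rpow_pos_of_pos (by norm_num) p)
  have hp' : 0 < 1 / p := by positivity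
  have h : (max (4 * K ^ p - 2 ^ (p - 1)) 0) ^ (1 / p) < ((2 : ℝ) ^ p) ^ (1 / p) :=
    Real.rpow_lt_rpow hc0 hc2 hp'
  rwa [← Real.rpow_mul (by norm_num), mul_one_div_cancel hp.ne', Real.rpow_one] at h

/-- Markov type `p` with a constant below the threshold forces uniform non-squareness. -/
theorem main_nonsquare {p K : ℝ} (hp : 0 < p) (hX : MarkovType X p K)
    (hK : 4 * K ^ p - 2 ^ (p - 1) < 2 ^ p) :
    ∃ δ > 0, ∀ u v : X, ‖u‖ ≤ 1 → ‖v‖ ≤ 1 →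
      ‖(1 / 2 : ℝ) • (u + v)‖ ≤ 1 - δ ∨ ‖(1 / 2 : ℝ) • (u - v)‖ ≤ 1 - δ := by
  have hr2 := main_bound_lt_two hp hK
  refine ⟨1 - (max (4 * K ^ p - 2 ^ (p - 1)) 0) ^ (1 / p) / 2, by linarith,
    fun u v hu hv => ?_⟩
  have h := main_min hp hX u v hu hv
  rw [norm_smul, norm_smul, Real.norm_eq_abs, abs_of_pos (by norm_num : (0 : ℝ) < 1 / 2)]
  rcases min_le_iff.mp h with h1 | h1
  · left
    linarith
  · right
    linarith

/-- Markov type `2` with constant `1` forces the parallelogram law. -/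
theorem main_parallelogram (hX : MarkovType X 2 1) (u v : X) :
    ‖u + v‖ ^ 2 + ‖u - v‖ ^ 2 = 2 * (‖u‖ ^ 2 + ‖v‖ ^ 2) := by
  have key : ∀ a b : X, ‖a + b‖ ^ 2 + ‖a - b‖ ^ 2 ≤ 2 * (‖a‖ ^ 2 + ‖b‖ ^ 2) := by
    intro a b
    have h := main_ineq hX a b
    simp only [Real.rpow_two] at h
    have h2 : (2 : ℝ) ^ ((2 : ℝ) - 1) = 2 := by norm_num
    rw [h2] at h
    linarith
  apply le_antisymm (key u v)
  have h := key (u + v) (u - v)
  have e1 : u + v + (u - v) = (2 : ℝ) • u := by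
    rw [two_smul]
    abel
  have e2 : u + v - (u - v) = (2 : ℝ) • v := by
    rw [two_smul]
    abel
  rw [e1, e2, norm_smul, norm_smul, Real.norm_eq_abs, abs_of_pos (by norm_num : (0 : ℝ) < 2)] at h
  nlinarith

end Vale.Agent.H34.P125
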