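import Mathlib

/-!
# P125, candidate B (`NDefs.lean`): the walk on the torus `Fin n → Z` and the embedding
(definitions only, do not edit)

`stepsN n e (i, b)` moves the coordinate `i` by `sgnStep e b` (`e` if `b`, `-e` if not);
`embN g x z = ∑ i, g (z i) • x i`.
-/

namespace Vale.Agent.H34.P125

open scoped BigOperators

variable {Z : Type} [AddCommGroup Z]
variable {X : Type*} [AddCommGroup X] [Module ℝ X]

/-- The signed step: `e` for `true`, `-e` for `false`. -/
def sgnStep (e : Z) (b : Bool) : Z := if b then e else -e

/-- The `2 n` steps of the simple random walk on the torus `Fin n → Z`. -/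
def stepsN (n : ℕ) (e : Z) (s : Fin n × Bool) : Fin n → Z := Pi.single s.1 (sgnStep e s.2)

/-- The map `z ↦ ∑ i, g (z i) • x i`. -/
def embN {n : ℕ} (g : Z → ℝ) (x : Fin n → X) (z : Fin n → Z) : X := ∑ i, g (z i) • x i

end Vale.Agent.H34.P125
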