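import Vale.Agent.H34.P125.NDefs

/-!
# P125, candidate B, row N0 (`NDisp.lean`): displacements of `embN` under one and two steps

`embN g x z - embN g x w = ∑ l, (g (z l) - g (w l)) • x l` (`Finset.sum_sub_distrib`, `sub_smul`).
A step `stepsN n e (i, a) = Pi.single i (sgnStep e a)` changes only the coordinate `i`
(`Pi.add_apply`, `Pi.single_apply` / `Pi.single_eq_same`, `Pi.single_eq_of_ne`), so all terms
with `l ≠ i` (resp. `l ∉ {i, j}`) vanish: `Finset.sum_eq_single i`, resp.
`Finset.sum_eq_add_of_mem` / `Finset.sum_erase` / two `Finset.sum_eq_single` after splitting.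
Helper lemmas inside this file have names starting with `nDisp_`.
-/

namespace Vale.Agent.H34.P125

open scoped BigOperators

variable {Z : Type} [AddCommGroup Z]
variable {X : Type*} [AddCommGroup X] [Module ℝ X]

omit [AddCommGroup Z] in
/-- The displacement of `embN` as one sum. -/
theorem nDisp_sub {n : ℕ} (g : Z → ℝ) (x : Fin n → X) (z w : Fin n → Z) :
    embN g x z - embN g x w = ∑ l, (g (z l) - g (w l)) • x l := by
  unfold embN
  rw [← Finset.sum_sub_distrib]
  apply Finset.sum_congr rfl
  intro l _
  rw [sub_smul]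

/-- One step at the moved coordinate. -/
theorem nDisp_same {n : ℕ} (e : Z) (z : Fin n → Z) (i : Fin n) (a : Bool) :
    (z + stepsN n e (i, a)) i = z i + sgnStep e a := by
  simp [stepsN]

/-- One step at another coordinate. -/
theorem nDisp_other {n : ℕ} (e : Z) (z : Fin n → Z) (i l : Fin n) (hl : l ≠ i) (a : Bool) :
    (z + stepsN n e (i, a)) l = z l := by
  simp [stepsN, Pi.single_eq_of_ne hl]

theorem embN_step {n : ℕ} (e : Z) (g : Z → ℝ) (x : Fin n → X) (z : Fin n → Z) (i : Fin n)
    (a : Bool) :
    embN g x z - embN g x (z + stepsN n e (i, a))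
      = (g (z i) - g (z i + sgnStep e a)) • x i := by
  rw [nDisp_sub, Fintype.sum_eq_single i]
  · rw [nDisp_same]
  · intro l hl
    rw [nDisp_other e z i l hl a, sub_self, zero_smul]

theorem embN_two_same {n : ℕ} (e : Z) (g : Z → ℝ) (x : Fin n → X) (z : Fin n → Z) (i : Fin n)
    (a b : Bool) :
    embN g x z - embN g x (z + stepsN n e (i, a) + stepsN n e (i, b))
      = (g (z i) - g (z i + sgnStep e a + sgnStep e b)) • x i := by
  rw [nDisp_sub, Fintype.sum_eq_single i]
  · rw [nDisp_same, nDisp_same]
  · intro l hl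
    rw [nDisp_other e _ i l hl b, nDisp_other e z i l hl a, sub_self, zero_smul]

theorem embN_two_ne {n : ℕ} (e : Z) (g : Z → ℝ) (x : Fin n → X) (z : Fin n → Z) (i j : Fin n)
    (hij : i ≠ j) (a b : Bool) :
    embN g x z - embN g x (z + stepsN n e (i, a) + stepsN n e (j, b))
      = (g (z i) - g (z i + sgnStep e a)) • x i + (g (z j) - g (z j + sgnStep e b)) • x j := by
  rw [nDisp_sub, Fintype.sum_eq_add i j hij]
  · rw [nDisp_other e _ j i hij b, nDisp_same, nDisp_same, nDisp_other e z i j (Ne.symm hij) a]
  · intro l hl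
    rw [nDisp_other e _ j l hl.2 b, nDisp_other e z i l hl.1 a, sub_self, zero_smul]

end Vale.Agent.H34.P125
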