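import Vale.Agent.H34.P125.NMain

/-!
# P125: explicit James bounds for every `n`

If `X` has Markov type `p` with constant `K`, then for every `n ≥ 2` and all `x_1, ..., x_n` in
the unit ball one of the James sums `x_1 + ... + x_k - x_(k+1) - ... - x_n` has norm at most
`n - 2 + ρ_n`, where `ρ_n = (max ((4 n K ^ p - 2 ^ p) / (2 (n - 1))) 0) ^ (1 / p)`.
If `K ^ p < 2 ^ (p - 1) * (1 - 1 / (2 n))` then `ρ_n < 2`.
-/

namespace Vale.Agent.H34.P125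

open scoped BigOperators

variable {X : Type*} [NormedAddCommGroup X] [NormedSpace ℝ X]

/-- The explicit James bound. -/
theorem james_explicit {p K : ℝ} (hp : 0 < p) (hX : MarkovType X p K) (n : ℕ) (hn : 2 ≤ n)
    (x : Fin n → X) (hx : ∀ i, ‖x i‖ ≤ 1) :
    ∃ k : Fin n, ‖∑ l, (if l ≤ k then x l else -x l)‖ ≤
      (n : ℝ) - 2 +
        (max ((4 * (n : ℝ) * K ^ p - 2 ^ p) / (2 * ((n : ℝ) - 1))) 0) ^ (1 / p) := by
  classical
  by_contra hcon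
  simp only [not_exists, not_le] at hcon
  obtain ⟨r, hr⟩ : ∃ r : ℝ, r = (4 * (n : ℝ) * K ^ p - 2 ^ p) / (2 * ((n : ℝ) - 1)) := ⟨_, rfl⟩
  rw [← hr] at hcon
  obtain ⟨ρ, hρ⟩ : ∃ ρ : ℝ, ρ = (max r 0) ^ (1 / p) := ⟨_, rfl⟩
  rw [← hρ] at hcon
  have hn2 : (2 : ℝ) ≤ (n : ℝ) := by exact_mod_cast hn
  have hn1 : (0 : ℝ) < (n : ℝ) - 1 := by linarith
  have hm0 : 0 ≤ max r 0 := le_max_right _ _
  have hρ0 : 0 ≤ ρ := by
    rw [hρ]
    exact Real.rpow_nonneg hm0 _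
  have hρp : ρ ^ p = max r 0 := by
    rw [hρ, ← Real.rpow_mul hm0, one_div, inv_mul_cancel₀ hp.ne', Real.rpow_one]
  have hcon' : ∀ k : Fin n, (n : ℝ) - 2 + ρ < ‖∑ l, (if l ≤ k then x l else -x l)‖ := hcon
  have hpair : ∀ i j : Fin n, i ≠ j →
      max r 0 < ‖x i + x j‖ ^ p ∧ max r 0 < ‖x i - x j‖ ^ p := by
    intro i j hij
    have key : ρ < ‖x i + x j‖ ∧ ρ < ‖x i - x j‖ := by
      rcases lt_or_gt_of_ne hij with h | h
      · have h6 := james_pairwise x hx _ hcon' i j h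
        exact ⟨by linarith [h6.1], by linarith [h6.2]⟩
      · have h6 := james_pairwise x hx _ hcon' j i h
        rw [add_comm (x j) (x i), norm_sub_rev] at h6
        exact ⟨by linarith [h6.1], by linarith [h6.2]⟩
    rw [← hρp]
    exact ⟨Real.rpow_lt_rpow hρ0 key.1 hp, Real.rpow_lt_rpow hρ0 key.2 hp⟩
  have hineq := mainN_ineq hX n x
  have hne : (Finset.univ : Finset (Fin n)).Nonempty := ⟨⟨0, by omega⟩, Finset.mem_univ _⟩
  have hcard : ∀ i : Fin n, (((Finset.univ : Finset (Fin n)).erase i).card : ℝ) = (n : ℝ) - 1 := by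
    intro i
    rw [Finset.card_erase_of_mem (Finset.mem_univ i), Finset.card_univ, Fintype.card_fin]
    have h1 : 1 ≤ n := by omega
    push_cast [Nat.cast_sub h1]
    ring
  have hL : 2 * max r 0 * ((n : ℝ) * ((n : ℝ) - 1)) <
      ∑ i, ∑ j ∈ Finset.univ.erase i, (‖x i + x j‖ ^ p + ‖x i - x j‖ ^ p) := by
    have h1 : ∑ _i : Fin n, (2 * max r 0 * ((n : ℝ) - 1)) =
        2 * max r 0 * ((n : ℝ) * ((n : ℝ) - 1)) := by
      rw [Finset.sum_const, Finset.card_univ, Fintype.card_fin, nsmul_eq_mul]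
      ring
    rw [← h1]
    refine Finset.sum_lt_sum_of_nonempty hne (fun i _ => ?_)
    have hne' : ((Finset.univ : Finset (Fin n)).erase i).Nonempty := by
      rw [← Finset.card_pos, Finset.card_erase_of_mem (Finset.mem_univ i), Finset.card_univ,
        Fintype.card_fin]
      omega
    have h2 : ∑ _j ∈ (Finset.univ : Finset (Fin n)).erase i, (2 * max r 0) =
        2 * max r 0 * ((n : ℝ) - 1) := by
      rw [Finset.sum_const, nsmul_eq_mul, hcard i]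
      ring
    rw [← h2]
    refine Finset.sum_lt_sum_of_nonempty hne' (fun j hj => ?_)
    have hij : i ≠ j := fun h => (Finset.mem_erase.mp hj).1 h.symm
    have h3 := hpair i j hij
    linarith [h3.1, h3.2]
  have hW0 : 0 ≤ ∑ i, ‖x i‖ ^ p :=
    Finset.sum_nonneg (fun i _ => Real.rpow_nonneg (norm_nonneg (x i)) p)
  have hWn : ∑ i, ‖x i‖ ^ p ≤ (n : ℝ) := by
    calc ∑ i, ‖x i‖ ^ p ≤ ∑ _i : Fin n, (1 : ℝ) :=
          Finset.sum_le_sum (fun i _ => Real.rpow_le_one (norm_nonneg _) (hx i) hp.le)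
      _ = (n : ℝ) := by
          rw [Finset.sum_const, Finset.card_univ, Fintype.card_fin, nsmul_eq_mul, mul_one]
  have hA : 4 * (n : ℝ) * K ^ p - 2 ^ p = r * (2 * ((n : ℝ) - 1)) := by
    rw [hr]
    field_simp
  have hU : (4 * (n : ℝ) * K ^ p - 2 ^ p) * ∑ i, ‖x i‖ ^ p ≤
      2 * max r 0 * ((n : ℝ) * ((n : ℝ) - 1)) := by
    rw [hA]
    have h4 : r * (2 * ((n : ℝ) - 1)) ≤ max r 0 * (2 * ((n : ℝ) - 1)) :=
      mul_le_mul_of_nonneg_right (le_max_left _ _) (by linarith)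
    have h5 : 0 ≤ max r 0 * (2 * ((n : ℝ) - 1)) := mul_nonneg hm0 (by linarith)
    calc r * (2 * ((n : ℝ) - 1)) * ∑ i, ‖x i‖ ^ p
        ≤ max r 0 * (2 * ((n : ℝ) - 1)) * ∑ i, ‖x i‖ ^ p :=
          mul_le_mul_of_nonneg_right h4 hW0
      _ ≤ max r 0 * (2 * ((n : ℝ) - 1)) * (n : ℝ) := mul_le_mul_of_nonneg_left hWn h5
      _ = 2 * max r 0 * ((n : ℝ) * ((n : ℝ) - 1)) := by ring
  linarith

/-- Below the threshold the radius of `james_explicit` is smaller than `2`. -/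
theorem james_radius_lt_two {p K : ℝ} (hp : 0 < p) (n : ℕ) (hn : 2 ≤ n)
    (h : K ^ p < 2 ^ (p - 1) * (1 - 1 / (2 * (n : ℝ)))) :
    (max ((4 * (n : ℝ) * K ^ p - 2 ^ p) / (2 * ((n : ℝ) - 1))) 0) ^ (1 / p) < 2 := by
  have hn2 : (2 : ℝ) ≤ (n : ℝ) := by exact_mod_cast hn
  have hn1 : (0 : ℝ) < (n : ℝ) - 1 := by linarith
  have hn0 : (0 : ℝ) < (n : ℝ) := by linarith
  have h2p : (0 : ℝ) < 2 ^ p := Real.rpow_pos_of_pos (by norm_num) p
  have hhalf : (2 : ℝ) ^ (p - 1) = 2 ^ p / 2 := Real.rpow_sub_one two_ne_zero p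
  rw [hhalf] at h
  have hr : (4 * (n : ℝ) * K ^ p - 2 ^ p) / (2 * ((n : ℝ) - 1)) < 2 ^ p := by
    rw [div_lt_iff₀ (by linarith)]
    have h1 : 4 * (n : ℝ) * K ^ p < 4 * (n : ℝ) * (2 ^ p / 2 * (1 - 1 / (2 * (n : ℝ)))) :=
      mul_lt_mul_of_pos_left h (by linarith)
    have h2 : 4 * (n : ℝ) * (2 ^ p / 2 * (1 - 1 / (2 * (n : ℝ)))) =
        2 ^ p * (2 * (n : ℝ) - 1) := by
      field_simp
      ring
    rw [h2] at h1
    linarith
  have hc0 : 0 ≤ max ((4 * (n : ℝ) * K ^ p - 2 ^ p) / (2 * ((n : ℝ) - 1))) 0 :=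
    le_max_right _ _
  have hc2 : max ((4 * (n : ℝ) * K ^ p - 2 ^ p) / (2 * ((n : ℝ) - 1))) 0 < 2 ^ p :=
    max_lt hr h2p
  have hp' : 0 < 1 / p := by positivity
  have h3 : (max ((4 * (n : ℝ) * K ^ p - 2 ^ p) / (2 * ((n : ℝ) - 1))) 0) ^ (1 / p) <
      ((2 : ℝ) ^ p) ^ (1 / p) := Real.rpow_lt_rpow hc0 hc2 hp'
  rwa [← Real.rpow_mul (by norm_num), mul_one_div_cancel hp.ne', Real.rpow_one] at h3

end Vale.Agent.H34.P125
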