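import Vale.Agent.H34.P125.NJames

/-!
# P125, candidate B, row N6 (`NJConvex.lean`): the pair inequality forces J-convexity
(pure normed space + real analysis; no Markov chains)

Hypothesis `h`: for all `n` and `x : Fin n → X`,
`∑ i, ∑ j ≠ i, (‖x i + x j‖ ^ p + ‖x i - x j‖ ^ p) ≤ 4 * n * Kp * ∑ i, ‖x i‖ ^ p`,
with `0 ≤ Kp < 2 ^ (p - 1)`, `p > 0`.  Conclusion: `X` is J-convex.

Proof.  `c := 2 ^ p > 0`, `2 ^ (p - 1) = c / 2` (`Real.rpow_sub_one`), `η := c / 2 - Kp > 0`.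
Choose `n ≥ 2` with `n * η > c / 2` (`exists_nat_gt`); then `(n - 1) * c > 2 * n * Kp`.
The function `F ε := (n - 1) * (2 - n * ε) ^ p` is continuous (`Real.continuous_rpow_const hp`)
with `F 0 = (n - 1) * c > 2 * n * Kp`, so there is `ε` with `0 < ε ≤ 1 / n` and
`F ε > 2 * n * Kp` (open set `F ⁻¹' Set.Ioi (2 * n * Kp)`, `Metric.isOpen_iff`; take
`min (δ / 2) (1 / n)`); note `2 - n * ε ≥ 1`.  (Or choose `ε` explicitly.)
Let `x` be in the unit ball and suppose `n * (1 - ε) < ‖s k‖` for all `k` (`by_contra`,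
`not_exists`, `not_le`), `s k := ∑ l, (if l ≤ k then x l else -x l)`.  By `james_pairwise`
(black box, `c = n * (1 - ε)`, `n * (1 - ε) - (n - 2) = 2 - n * ε`) for `i < j`:
`2 - n * ε < ‖x i + x j‖` and `2 - n * ε < ‖x i - x j‖`; for `j < i` use `add_comm` and
`norm_sub_rev`.  Hence for `j ≠ i`: `‖x i + x j‖ ^ p + ‖x i - x j‖ ^ p ≥ 2 * (2 - n * ε) ^ p`
(`Real.rpow_le_rpow`), and the double sum is `≥ n * (n - 1) * 2 * (2 - n * ε) ^ p = 2 * n * F ε`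
(`Finset.card_erase_of_mem`, `Finset.sum_const`).  On the other side `∑ i, ‖x i‖ ^ p ≤ n`
(`Real.rpow_le_one`), so `4 * n * Kp * ∑ i, ‖x i‖ ^ p ≤ 4 * n * Kp * n < 2 * n * F ε`.
Contradiction with `h n x`.
Helper lemmas inside this file with the prefix `nJConvex_`.
-/

namespace Vale.Agent.H34.P125

open scoped BigOperators

variable {X : Type*} [NormedAddCommGroup X]

theorem jconvex_of_pair_ineq {p : ℝ} (hp : 0 < p) (Kp : ℝ) (hKp : 0 ≤ Kp)
    (hK : Kp < 2 ^ (p - 1))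
    (h : ∀ (n : ℕ) (x : Fin n → X),
      ∑ i, ∑ j ∈ Finset.univ.erase i, (‖x i + x j‖ ^ p + ‖x i - x j‖ ^ p)
        ≤ 4 * (n : ℝ) * Kp * ∑ i, ‖x i‖ ^ p) :
    ∃ n : ℕ, 2 ≤ n ∧ ∃ ε > 0, ∀ x : Fin n → X, (∀ i, ‖x i‖ ≤ 1) →
      ∃ k : Fin n, ‖∑ l, (if l ≤ k then x l else -x l)‖ ≤ (n : ℝ) * (1 - ε) := by
  classical
  have hc : (0 : ℝ) < 2 ^ p := Real.rpow_pos_of_pos two_pos p
  have hhalf : (2 : ℝ) ^ (p - 1) = 2 ^ p / 2 := Real.rpow_sub_one two_ne_zero p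
  rw [hhalf] at hK
  have hη : 0 < (2 : ℝ) ^ p / 2 - Kp := by linarith
  obtain ⟨n, hn⟩ := exists_nat_gt ((2 : ℝ) ^ p / (2 * ((2 : ℝ) ^ p / 2 - Kp)) + 2)
  have hq0 : 0 ≤ (2 : ℝ) ^ p / (2 * ((2 : ℝ) ^ p / 2 - Kp)) := div_nonneg hc.le (by linarith)
  have hn2R : (2 : ℝ) < n := by linarith
  have hn2 : 2 ≤ n := by exact_mod_cast hn2R.le
  have hnpos : (0 : ℝ) < n := by linarith
  have hn0 : (n : ℝ) ≠ 0 := hnpos.ne'
  have hn1 : (0 : ℝ) < (n : ℝ) - 1 := by linarith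
  have hkey : 2 * (n : ℝ) * Kp < ((n : ℝ) - 1) * 2 ^ p := by
    have h1 : (2 : ℝ) ^ p / (2 * ((2 : ℝ) ^ p / 2 - Kp)) < n := by linarith
    rw [div_lt_iff₀ (by linarith)] at h1
    nlinarith
  obtain ⟨τ, hτ⟩ : ∃ τ : ℝ, τ = 2 * (n : ℝ) * Kp / ((n : ℝ) - 1) := ⟨_, rfl⟩
  have hτ' : ((n : ℝ) - 1) * τ = 2 * (n : ℝ) * Kp := by
    rw [hτ]
    field_simp
  have hτc : τ < 2 ^ p := by
    rw [hτ, div_lt_iff₀ hn1]
    linarith
  have hcont : ContinuousAt (fun t : ℝ => t ^ p) 2 :=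
    (Real.continuous_rpow_const hp.le).continuousAt
  obtain ⟨δ, hδ, hδ'⟩ := Metric.continuousAt_iff.mp hcont ((2 : ℝ) ^ p - τ) (by linarith)
  obtain ⟨u, hu⟩ : ∃ u : ℝ, u = min (δ / 2) 1 := ⟨_, rfl⟩
  have hu0 : 0 < u := by
    rw [hu]
    exact lt_min (by linarith) one_pos
  have hu1 : u ≤ 1 := by
    rw [hu]
    exact min_le_right _ _
  have huδ : u < δ := by
    rw [hu]
    exact lt_of_le_of_lt (min_le_left _ _) (by linarith)
  have hF : τ < (2 - u) ^ p := by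
    have hd : dist (2 - u) (2 : ℝ) < δ := by
      rw [Real.dist_eq, abs_lt]
      constructor <;> linarith
    have hthis : dist ((2 - u) ^ p) ((2 : ℝ) ^ p) < 2 ^ p - τ := hδ' hd
    rw [Real.dist_eq, abs_lt] at hthis
    linarith [hthis.1]
  have hF' : 2 * (n : ℝ) * Kp < ((n : ℝ) - 1) * (2 - u) ^ p := by
    have hm := mul_lt_mul_of_pos_left hF hn1
    linarith
  have h2u : (0 : ℝ) ≤ 2 - u := by linarith
  refine ⟨n, hn2, u / n, div_pos hu0 hnpos, ?_⟩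
  intro x hx
  by_contra hcon
  simp only [not_exists, not_le] at hcon
  have hne : (n : ℝ) * (1 - u / n) = n - u := by
    field_simp
  rw [hne] at hcon
  have hpair : ∀ i j : Fin n, i ≠ j → 2 - u < ‖x i + x j‖ ∧ 2 - u < ‖x i - x j‖ := by
    intro i j hij
    rcases lt_or_gt_of_ne hij with hlt | hgt
    · have hjp := james_pairwise x hx ((n : ℝ) - u) hcon i j hlt
      constructor
      · linarith [hjp.1]
      · linarith [hjp.2]
    · have hjp := james_pairwise x hx ((n : ℝ) - u) hcon j i hgt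
      rw [add_comm (x i) (x j), norm_sub_rev (x i) (x j)]
      constructor
      · linarith [hjp.1]
      · linarith [hjp.2]
  have hterm : ∀ i : Fin n, ∀ j ∈ Finset.univ.erase i,
      2 * (2 - u) ^ p ≤ ‖x i + x j‖ ^ p + ‖x i - x j‖ ^ p := by
    intro i j hj
    have hji : i ≠ j := (Finset.ne_of_mem_erase hj).symm
    obtain ⟨h1, h2⟩ := hpair i j hji
    have e1 := Real.rpow_le_rpow h2u h1.le hp.le
    have e2 := Real.rpow_le_rpow h2u h2.le hp.le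
    linarith
  have hcard : ∀ i : Fin n, ((Finset.univ.erase i).card : ℝ) = (n : ℝ) - 1 := by
    intro i
    rw [Finset.card_erase_of_mem (Finset.mem_univ i), Finset.card_univ, Fintype.card_fin,
      Nat.cast_sub (by omega)]
    simp
  have hlow : (n : ℝ) * ((n : ℝ) - 1) * (2 * (2 - u) ^ p)
      ≤ ∑ i, ∑ j ∈ Finset.univ.erase i, (‖x i + x j‖ ^ p + ‖x i - x j‖ ^ p) := by
    have heq : (n : ℝ) * ((n : ℝ) - 1) * (2 * (2 - u) ^ p)
        = ∑ i : Fin n, ∑ _j ∈ Finset.univ.erase i, 2 * (2 - u) ^ p := by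
      simp only [Finset.sum_const, nsmul_eq_mul, hcard, Finset.card_univ, Fintype.card_fin]
      ring
    rw [heq]
    exact Finset.sum_le_sum fun i _ => Finset.sum_le_sum fun j hj => hterm i j hj
  have hsum : ∑ i, ‖x i‖ ^ p ≤ (n : ℝ) := by
    calc ∑ i, ‖x i‖ ^ p ≤ ∑ _i : Fin n, (1 : ℝ) :=
          Finset.sum_le_sum fun i _ => Real.rpow_le_one (norm_nonneg _) (hx i) hp.le
      _ = n := by simp
  have hup : 4 * (n : ℝ) * Kp * ∑ i, ‖x i‖ ^ p ≤ 4 * (n : ℝ) * Kp * n :=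
    mul_le_mul_of_nonneg_left hsum (mul_nonneg (mul_nonneg (by norm_num) hnpos.le) hKp)
  have hall := h n x
  have hfin : (n : ℝ) * ((n : ℝ) - 1) * (2 * (2 - u) ^ p) ≤ 4 * (n : ℝ) * Kp * n := by
    linarith
  have hm2 := mul_lt_mul_of_pos_left hF' (by linarith : (0 : ℝ) < 2 * n)
  nlinarith

end Vale.Agent.H34.P125
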