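import Mathlib

/-!
# P125, candidate B, row N5 (`NJames.lean`): from the James sums to pairs (pure normed space)

`x : Fin n → X` in the unit ball, `s k := ∑ l, (if l ≤ k then x l else -x l)` (the James sums:
plus signs up to `k`, minus signs after `k`).  If `c < ‖s k‖` for all `k` then for `i < j`:
`c - (n - 2) < ‖x i + x j‖` and `c - (n - 2) < ‖x i - x j‖`.

Proof.  `n ≥ 2` because `i < j`.  For the sum take `k` = the last index (`⟨n - 1, _⟩`): every
`l ≤ k`, so `s k = ∑ l, x l = (x i + x j) + ∑ l ∈ (univ.erase i).erase j, x l`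
(`Finset.add_sum_erase` twice), and the rest has norm `≤ n - 2` (`norm_sum_le`,
`Finset.sum_le_card_nsmul`, `Finset.card_erase_of_mem`).  For the difference take `k = i`:
the `i`-th term is `x i` (`i ≤ i`), the `j`-th term is `-x j` (`¬ j ≤ i`), the other `n - 2` terms
have norm `≤ 1` each (`norm_neg`).  Triangle inequality.
Helper lemmas inside this file have names starting with `nJames_`.
-/

namespace Vale.Agent.H34.P125

open scoped BigOperators

variable {X : Type*} [NormedAddCommGroup X]

theorem nJames_sum_le {n : ℕ} (y : Fin n → X) (hy : ∀ l, ‖y l‖ ≤ 1) (i j : Fin n)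
    (hij : i ≠ j) : ‖∑ l, y l‖ ≤ ‖y i + y j‖ + ((n : ℝ) - 2) := by
  classical
  have hj : j ∈ (Finset.univ : Finset (Fin n)).erase i :=
    Finset.mem_erase.mpr ⟨hij.symm, Finset.mem_univ _⟩
  have h1 : ∑ l, y l
      = (y i + y j) + ∑ l ∈ ((Finset.univ : Finset (Fin n)).erase i).erase j, y l := by
    rw [← Finset.add_sum_erase _ _ (Finset.mem_univ i), ← Finset.add_sum_erase _ _ hj,
      add_assoc]
  have hn : 2 ≤ n := by
    have hi := i.isLt
    have hj' := j.isLt
    have : (i : ℕ) ≠ j := fun h => hij (Fin.ext h)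
    omega
  have hcard : (((Finset.univ : Finset (Fin n)).erase i).erase j).card = n - 2 := by
    rw [Finset.card_erase_of_mem hj, Finset.card_erase_of_mem (Finset.mem_univ i),
      Finset.card_univ, Fintype.card_fin]
    omega
  have h2 : ‖∑ l ∈ ((Finset.univ : Finset (Fin n)).erase i).erase j, y l‖ ≤ (n : ℝ) - 2 := by
    calc ‖∑ l ∈ ((Finset.univ : Finset (Fin n)).erase i).erase j, y l‖
        ≤ ∑ l ∈ ((Finset.univ : Finset (Fin n)).erase i).erase j, ‖y l‖ := norm_sum_le _ _
      _ ≤ ∑ _l ∈ ((Finset.univ : Finset (Fin n)).erase i).erase j, (1 : ℝ) :=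
          Finset.sum_le_sum (fun l _ => hy l)
      _ = (n : ℝ) - 2 := by
          rw [Finset.sum_const, hcard, nsmul_eq_mul, mul_one, Nat.cast_sub hn]
          norm_num
  rw [h1]
  exact (norm_add_le _ _).trans (by linarith)

theorem james_pairwise {n : ℕ} (x : Fin n → X) (hx : ∀ i, ‖x i‖ ≤ 1) (c : ℝ)
    (h : ∀ k : Fin n, c < ‖∑ l, (if l ≤ k then x l else -x l)‖) (i j : Fin n) (hij : i < j) :
    c - ((n : ℝ) - 2) < ‖x i + x j‖ ∧ c - ((n : ℝ) - 2) < ‖x i - x j‖ := by
  have hn : 2 ≤ n := by
    have hj' := j.isLt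
    have : (i : ℕ) < j := hij
    omega
  have hne : i ≠ j := ne_of_lt hij
  have hy : ∀ k : Fin n, ∀ l : Fin n, ‖(if l ≤ k then x l else -x l)‖ ≤ 1 := by
    intro k l
    split_ifs
    · exact hx l
    · rw [norm_neg]
      exact hx l
  constructor
  · have hk := h ⟨n - 1, by omega⟩
    have hle := nJames_sum_le
      (fun l => if l ≤ (⟨n - 1, by omega⟩ : Fin n) then x l else -x l) (hy _) i j hne
    have hi : i ≤ (⟨n - 1, by omega⟩ : Fin n) := by
      rw [Fin.le_def]
      have := i.isLt
      simp only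
      omega
    have hj : j ≤ (⟨n - 1, by omega⟩ : Fin n) := by
      rw [Fin.le_def]
      have := j.isLt
      simp only
      omega
    simp only [if_pos hi, if_pos hj] at hle
    linarith
  · have hk := h i
    have hle := nJames_sum_le (fun l => if l ≤ i then x l else -x l) (hy i) i j hne
    have hj : ¬ j ≤ i := not_le.mpr hij
    simp only [le_refl, if_true, if_neg hj] at hle
    rw [← sub_eq_add_neg] at hle
    linarith

end Vale.Agent.H34.P125
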