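import Vale.Agent.H34.P125.NDisp

/-!
# P125, candidate B, row N1 (`NOne.lean`): the one-step sum on the torus `Fin n → Z`

By `embN_step` (black box, `NDisp.lean`) the term for the step `(i, a)` is
`φ ((g (z i) - g (z i + sgnStep e a)) • x i)`.  `a = true`: the coefficient is `-(D (z i))`,
`a = false`: it is `D (z i - e)` (`z i + -e + e = z i`), where `D k = g (k + e) - g k = ±1`; `φ`
even, so the term is `φ (x i)`.  `Fintype.sum_prod_type`, `Fintype.sum_bool`,
`Finset.sum_const`, `Finset.card_univ`, `Fintype.card_fun` (or `Fintype.card_pi`,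
`Finset.prod_const`), `Fintype.card_fin`.
Helper lemmas inside this file with the prefix `nOne_`.
-/

namespace Vale.Agent.H34.P125

open scoped BigOperators

variable {Z : Type} [AddCommGroup Z] [Fintype Z] [DecidableEq Z]
variable {X : Type*} [AddCommGroup X] [Module ℝ X]

omit [Fintype Z] [DecidableEq Z] in
theorem nOne_term {n : ℕ} (e : Z) (g : Z → ℝ)
    (hD : ∀ k, g (k + e) - g k = 1 ∨ g (k + e) - g k = -1)
    (φ : X → ℝ) (hφ : ∀ y, φ (-y) = φ y) (x : Fin n → X) (z : Fin n → Z) (s : Fin n × Bool) :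
    φ (embN g x z - embN g x (z + stepsN n e s)) = φ (x s.1) := by
  obtain ⟨i, a⟩ := s
  rw [embN_step]
  cases a with
  | true =>
    have h1 : sgnStep e true = e := rfl
    rw [h1]
    rcases hD (z i) with h | h
    · have h2 : g (z i) - g (z i + e) = -1 := by linarith
      rw [h2, neg_one_smul, hφ]
    · have h2 : g (z i) - g (z i + e) = 1 := by linarith
      rw [h2, one_smul]
  | false =>
    have h1 : sgnStep e false = -e := rfl
    rw [h1]
    have h2 := hD (z i + -e)
    rw [neg_add_cancel_right] at h2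
    rcases h2 with h | h
    · rw [h, one_smul]
    · rw [h, neg_one_smul, hφ]

theorem torusN_one_step {n : ℕ} (e : Z) (g : Z → ℝ)
    (hD : ∀ k, g (k + e) - g k = 1 ∨ g (k + e) - g k = -1)
    (φ : X → ℝ) (hφ : ∀ y, φ (-y) = φ y) (x : Fin n → X) :
    ∑ z : Fin n → Z, ∑ s : Fin n × Bool, φ (embN g x z - embN g x (z + stepsN n e s))
      = 2 * (Fintype.card Z : ℝ) ^ n * ∑ i, φ (x i) := by
  simp only [nOne_term e g hD φ hφ x]
  have nOne_h1 : ∑ s : Fin n × Bool, φ (x s.1) = 2 * ∑ i, φ (x i) := by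
    rw [Fintype.sum_prod_type]
    simp only [Fintype.sum_bool, ← two_mul, ← Finset.mul_sum]
  rw [nOne_h1, Finset.sum_const, Finset.card_univ, Fintype.card_fun, Fintype.card_fin,
    nsmul_eq_mul]
  push_cast
  ring

end Vale.Agent.H34.P125
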