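import Vale.Agent.H34.P125.NDisp

/-!
# P125, candidate B, row N3 (`NMixed.lean`): two steps in different coordinates `i ≠ j`

By `embN_two_ne` (black box) the displacement for the steps `(i, a)`, `(j, b)` is
`A a (z i) • x i + A b (z j) • x j` with `A a k := g k - g (k + sgnStep e a)`:
`A true k = -(D k)`, `A false k = D (k + -e)` (`D k = g (k + e) - g k = ±1`).
REINDEX FIRST: in the terms with `a = false` replace `z` by `z + Pi.single i e`
(`Equiv.sum_comp (Equiv.addRight (Pi.single i e))`; the coordinate `j ≠ i` is unchanged: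
`Pi.single_eq_of_ne`), so that `A false ((z + Pi.single i e) i) = D (z i)`; the same for `b = false`
with `Pi.single j e`.  The four sums (`Fintype.sum_bool` twice) become `∑ z` of
`φ (-(D (z i)) • x i - (D (z j)) • x j)`, `φ (-(D (z i)) • x i + (D (z j)) • x j)`,
`φ ((D (z i)) • x i - (D (z j)) • x j)`, `φ ((D (z i)) • x i + (D (z j)) • x j)`.
THEN pointwise: for `D (z i), D (z j) ∈ {1, -1}` these four numbers are `φ (x i + x j)` twice and
`φ (x i - x j)` twice (`φ` even; four cases).  `Finset.sum_const`, `Fintype.card_fun`.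
(At the same `z`, without the reindexing, the pairing is FALSE at turning points.)
Helper lemmas inside this file with the prefix `nMixed_`.
-/

namespace Vale.Agent.H34.P125

open scoped BigOperators

variable {Z : Type} [AddCommGroup Z] [Fintype Z] [DecidableEq Z]
variable {X : Type*} [AddCommGroup X] [Module ℝ X]

omit [DecidableEq Z] in
theorem nMixed_shift_i {n : ℕ} (H : Z → Z → ℝ) (i j : Fin n) (hij : i ≠ j) (c : Z) :
    ∑ z : Fin n → Z, H (z i + c) (z j) = ∑ z : Fin n → Z, H (z i) (z j) := by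
  have h := Equiv.sum_comp (Equiv.addRight (Pi.single i c))
    (fun z : Fin n → Z => H (z i) (z j))
  refine Eq.trans (Finset.sum_congr rfl fun z _ => ?_) h
  simp [Pi.single_eq_of_ne hij.symm]

omit [DecidableEq Z] in
theorem nMixed_shift_j {n : ℕ} (H : Z → Z → ℝ) (i j : Fin n) (hij : i ≠ j) (c : Z) :
    ∑ z : Fin n → Z, H (z i) (z j + c) = ∑ z : Fin n → Z, H (z i) (z j) := by
  have h := Equiv.sum_comp (Equiv.addRight (Pi.single j c))
    (fun z : Fin n → Z => H (z i) (z j))
  refine Eq.trans (Finset.sum_congr rfl fun z _ => ?_) h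
  simp [Pi.single_eq_of_ne hij]

theorem nMixed_four (φ : X → ℝ) (hφ : ∀ y, φ (-y) = φ y) (u w : X) (s t : ℝ)
    (hs : s = 1 ∨ s = -1) (ht : t = 1 ∨ t = -1) :
    φ ((-s) • u + (-t) • w) + φ ((-s) • u + t • w) + (φ (s • u + (-t) • w) + φ (s • u + t • w))
      = 2 * (φ (u + w) + φ (u - w)) := by
  have a1 : φ (-u + -w) = φ (u + w) := by rw [← neg_add, hφ]
  have a2 : φ (-u + w) = φ (u - w) := by rw [← hφ (u - w), neg_sub, sub_eq_add_neg, add_comm]
  have a3 : φ (u + -w) = φ (u - w) := by rw [sub_eq_add_neg]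
  rcases hs with rfl | rfl <;> rcases ht with rfl | rfl <;>
    simp only [neg_smul, one_smul, neg_neg, a1, a2, a3] <;> ring

theorem torusN_mixed {n : ℕ} (e : Z) (g : Z → ℝ)
    (hD : ∀ k, g (k + e) - g k = 1 ∨ g (k + e) - g k = -1)
    (φ : X → ℝ) (hφ : ∀ y, φ (-y) = φ y) (x : Fin n → X) (i j : Fin n) (hij : i ≠ j) :
    ∑ z : Fin n → Z, ∑ a : Bool, ∑ b : Bool,
        φ (embN g x z - embN g x (z + stepsN n e (i, a) + stepsN n e (j, b)))
      = 2 * (Fintype.card Z : ℝ) ^ n * (φ (x i + x j) + φ (x i - x j)) := by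
  obtain ⟨D, hDdef⟩ : ∃ D : Z → ℝ, ∀ k, D k = g (k + e) - g k := ⟨_, fun _ => rfl⟩
  have hD' : ∀ k, D k = 1 ∨ D k = -1 := fun k => by rw [hDdef]; exact hD k
  have hA1 : ∀ k, g k - g (k + sgnStep e true) = -D k := fun k => by
    rw [hDdef]; simp [sgnStep]
  have hA2 : ∀ k, g k - g (k + sgnStep e false) = D (k + -e) := fun k => by
    rw [hDdef]; simp [sgnStep]
  have h1 : ∀ z : Fin n → Z, ∀ a b : Bool,
      φ (embN g x z - embN g x (z + stepsN n e (i, a) + stepsN n e (j, b)))
        = φ ((g (z i) - g (z i + sgnStep e a)) • x i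
          + (g (z j) - g (z j + sgnStep e b)) • x j) :=
    fun z a b => by rw [embN_two_ne e g x z i j hij a b]
  simp only [h1, Fintype.sum_bool, hA1, hA2]
  rw [Finset.sum_add_distrib, Finset.sum_add_distrib, Finset.sum_add_distrib]
  have s2 : ∑ z : Fin n → Z, φ ((-D (z i)) • x i + D (z j + -e) • x j)
      = ∑ z : Fin n → Z, φ ((-D (z i)) • x i + D (z j) • x j) :=
    nMixed_shift_j (fun u w => φ ((-D u) • x i + D w • x j)) i j hij (-e)
  have s3 : ∑ z : Fin n → Z, φ (D (z i + -e) • x i + (-D (z j)) • x j)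
      = ∑ z : Fin n → Z, φ (D (z i) • x i + (-D (z j)) • x j) :=
    nMixed_shift_i (fun u w => φ (D u • x i + (-D w) • x j)) i j hij (-e)
  have s4 : ∑ z : Fin n → Z, φ (D (z i + -e) • x i + D (z j + -e) • x j)
      = ∑ z : Fin n → Z, φ (D (z i) • x i + D (z j) • x j) :=
    (nMixed_shift_i (fun u w => φ (D u • x i + D (w + -e) • x j)) i j hij (-e)).trans
      (nMixed_shift_j (fun u w => φ (D u • x i + D w • x j)) i j hij (-e))
  rw [s2, s3, s4, ← Finset.sum_add_distrib, ← Finset.sum_add_distrib, ← Finset.sum_add_distrib]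
  rw [Finset.sum_congr rfl (fun z _ => nMixed_four φ hφ (x i) (x j) (D (z i)) (D (z j))
    (hD' (z i)) (hD' (z j)))]
  rw [Finset.sum_const, Finset.card_univ, Fintype.card_fun, Fintype.card_fin, nsmul_eq_mul]
  push_cast
  ring

end Vale.Agent.H34.P125
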