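import Vale.Agent.H34.P125.NStraight
import Vale.Agent.H34.P125.NMixed

/-!
# P125, candidate B, row N4 (`NTwo.lean`): the two-step sum on the torus `Fin n → Z`

From `torusN_straight` and `torusN_mixed` (black boxes).  Put the sum over `z` inside
(`Finset.sum_comm`), split `s = (i, a)`, `s' = (j, b)` (`Fintype.sum_prod_type`), and for each `i`
split the sum over `j` into `j = i` and `j ∈ univ.erase i` (`Finset.add_sum_erase` /
`Finset.sum_erase_eq_sub`).
* `j ≠ i`: `∑ a, ∑ b, ∑ z, … = 2 * (card Z) ^ n * (φ (x i + x j) + φ (x i - x j))` by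
  `torusN_mixed` (after `Finset.sum_comm`).
* `j = i`: the four pairs `(a, b)` (`Fintype.sum_bool`): `(true, true)` and `(false, false)` are
  bounded below by `torusN_straight`; `(true, false)`, `(false, true)` are sums of values of `φ`,
  hence `≥ 0` (`Finset.sum_nonneg`).
Sum over `i` (`Finset.sum_le_sum`, `Finset.mul_sum`, `Finset.sum_add_distrib`).
Helper lemmas inside this file with the prefix `nTwo_`.
-/

namespace Vale.Agent.H34.P125

open scoped BigOperators

variable {Z : Type} [AddCommGroup Z] [Fintype Z] [DecidableEq Z]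
variable {X : Type*} [AddCommGroup X] [Module ℝ X]

theorem torusN_two_step {n : ℕ} (e : Z) (g : Z → ℝ)
    (hD : ∀ k, g (k + e) - g k = 1 ∨ g (k + e) - g k = -1)
    (T : ℕ) (hT : ((Finset.univ : Finset Z).filter
      (fun k => g (k + e + e) - g (k + e) ≠ g (k + e) - g k)).card ≤ T)
    (φ : X → ℝ) (hφ : ∀ y, φ (-y) = φ y) (hφ0 : ∀ y, 0 ≤ φ y) (x : Fin n → X) :
    2 * (Fintype.card Z : ℝ) ^ n * (1 - (T : ℝ) / (Fintype.card Z : ℝ)) *
          ∑ i, φ ((2 : ℝ) • x i)
        + 2 * (Fintype.card Z : ℝ) ^ n *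
          ∑ i, ∑ j ∈ Finset.univ.erase i, (φ (x i + x j) + φ (x i - x j))
      ≤ ∑ z : Fin n → Z, ∑ s : Fin n × Bool, ∑ s' : Fin n × Bool,
          φ (embN g x z - embN g x (z + stepsN n e s + stepsN n e s')) := by
  classical
  obtain ⟨S, hS⟩ : ∃ S : Fin n × Bool → Fin n × Bool → ℝ, ∀ s s', S s s'
      = ∑ z : Fin n → Z, φ (embN g x z - embN g x (z + stepsN n e s + stepsN n e s')) :=
    ⟨_, fun _ _ => rfl⟩
  have hS0 : ∀ s s', 0 ≤ S s s' := by
    intro s s'
    rw [hS]
    exact Finset.sum_nonneg (fun z _ => hφ0 _)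
  have hstr : ∀ (i : Fin n) (a : Bool),
      (Fintype.card Z : ℝ) ^ n * (1 - (T : ℝ) / (Fintype.card Z : ℝ)) * φ ((2 : ℝ) • x i)
        ≤ S (i, a) (i, a) := by
    intro i a
    rw [hS]
    exact torusN_straight e g hD T hT φ hφ hφ0 x i a
  have hmix : ∀ i j : Fin n, i ≠ j →
      S (i, true) (j, true) + S (i, true) (j, false)
        + (S (i, false) (j, true) + S (i, false) (j, false))
      = 2 * (Fintype.card Z : ℝ) ^ n * (φ (x i + x j) + φ (x i - x j)) := by
    intro i j hij
    have hm := torusN_mixed e g hD φ hφ x i j hij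
    simp only [Fintype.sum_bool, Finset.sum_add_distrib] at hm
    rw [hS, hS, hS, hS]
    linarith [hm]
  have key : ∑ z : Fin n → Z, ∑ s : Fin n × Bool, ∑ s' : Fin n × Bool,
        φ (embN g x z - embN g x (z + stepsN n e s + stepsN n e s'))
      = ∑ s : Fin n × Bool, ∑ s' : Fin n × Bool, S s s' := by
    rw [Finset.sum_comm]
    refine Finset.sum_congr rfl (fun s _ => ?_)
    rw [Finset.sum_comm]
    refine Finset.sum_congr rfl (fun s' _ => ?_)
    rw [hS]
  rw [key]
  simp only [Fintype.sum_prod_type, Fintype.sum_bool]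
  have hi : ∀ i : Fin n,
      2 * (Fintype.card Z : ℝ) ^ n * (1 - (T : ℝ) / (Fintype.card Z : ℝ)) * φ ((2 : ℝ) • x i)
        + 2 * (Fintype.card Z : ℝ) ^ n *
          ∑ j ∈ Finset.univ.erase i, (φ (x i + x j) + φ (x i - x j))
      ≤ ∑ j : Fin n, (S (i, true) (j, true) + S (i, true) (j, false))
        + ∑ j : Fin n, (S (i, false) (j, true) + S (i, false) (j, false)) := by
    intro i
    rw [← Finset.sum_add_distrib, ← Finset.add_sum_erase _ _ (Finset.mem_univ i)]
    have h1 : ∑ j ∈ Finset.univ.erase i, (S (i, true) (j, true) + S (i, true) (j, false)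
          + (S (i, false) (j, true) + S (i, false) (j, false)))
        = 2 * (Fintype.card Z : ℝ) ^ n *
          ∑ j ∈ Finset.univ.erase i, (φ (x i + x j) + φ (x i - x j)) := by
      rw [Finset.mul_sum]
      refine Finset.sum_congr rfl (fun j hj => ?_)
      exact hmix i j (Finset.ne_of_mem_erase hj).symm
    rw [h1]
    have h2 := hstr i true
    have h3 := hstr i false
    have h4 := hS0 (i, true) (i, false)
    have h5 := hS0 (i, false) (i, true)
    linarith
  calc 2 * (Fintype.card Z : ℝ) ^ n * (1 - (T : ℝ) / (Fintype.card Z : ℝ)) *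
          ∑ i, φ ((2 : ℝ) • x i)
        + 2 * (Fintype.card Z : ℝ) ^ n *
          ∑ i, ∑ j ∈ Finset.univ.erase i, (φ (x i + x j) + φ (x i - x j))
      = ∑ i : Fin n,
          (2 * (Fintype.card Z : ℝ) ^ n * (1 - (T : ℝ) / (Fintype.card Z : ℝ))
              * φ ((2 : ℝ) • x i)
            + 2 * (Fintype.card Z : ℝ) ^ n *
              ∑ j ∈ Finset.univ.erase i, (φ (x i + x j) + φ (x i - x j))) := by
        rw [Finset.sum_add_distrib, ← Finset.mul_sum, ← Finset.mul_sum]
    _ ≤ _ := Finset.sum_le_sum (fun i _ => hi i)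

end Vale.Agent.H34.P125
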