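import Vale.Agent.H34.P125.Defs
import Vale.Agent.H34.P125.Walk
import Vale.Agent.H34.P125.Tent
import Vale.Agent.H34.P125.NOne
import Vale.Agent.H34.P125.NTwo
import Vale.Agent.H34.P125.NJConvex

/-!
# P125, candidate B: Markov type with a small constant forces J-convexity (assembly)

If `X` has Markov type `p` with constant `K` then for all `n` and `x : Fin n → X`
`∑ i, ∑ j ≠ i, (‖x i + x j‖ ^ p + ‖x i - x j‖ ^ p) ≤ (4 * n * K ^ p - 2 ^ p) * ∑ i, ‖x i‖ ^ p`,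
and if `K ^ p < 2 ^ (p - 1)` then `X` is J-convex.
-/

namespace Vale.Agent.H34.P125

open scoped BigOperators

variable {X : Type*} [NormedAddCommGroup X] [NormedSpace ℝ X]

/-- The sign flip of the `2 n` steps. -/
def stepSwapN (n : ℕ) : Fin n × Bool ≃ Fin n × Bool :=
  Equiv.prodCongr (Equiv.refl _) Equiv.boolNot

theorem stepsN_stepSwapN {Z : Type} [AddCommGroup Z] (n : ℕ) (e : Z) (s : Fin n × Bool) :
    stepsN n e (stepSwapN n s) = -stepsN n e s := by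
  obtain ⟨i, b⟩ := s
  cases b <;> simp [stepsN, stepSwapN, sgnStep, Pi.single_neg]

theorem mainN_torus {p K : ℝ} (hX : MarkovType X p K)
    {Z : Type} [AddCommGroup Z] [Fintype Z] [DecidableEq Z] (e : Z) (g : Z → ℝ)
    (hD : ∀ k, g (k + e) - g k = 1 ∨ g (k + e) - g k = -1) (T : ℕ)
    (hT : ((Finset.univ : Finset Z).filter
      (fun k => g (k + e + e) - g (k + e) ≠ g (k + e) - g k)).card ≤ T)
    {n : ℕ} (hn : 0 < n) (x : Fin n → X) :
    ∑ i, ∑ j ∈ Finset.univ.erase i, (‖x i + x j‖ ^ p + ‖x i - x j‖ ^ p) ≤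
      (4 * (n : ℝ) * K ^ p - 2 ^ p * (1 - (T : ℝ) / (Fintype.card Z : ℝ))) *
        ∑ i, ‖x i‖ ^ p := by
  have hNpos : (0 : ℝ) < (Fintype.card Z : ℝ) := by
    have h : 0 < Fintype.card Z := Fintype.card_pos
    exact_mod_cast h
  have hnpos : (0 : ℝ) < (n : ℝ) := by exact_mod_cast hn
  have : Nonempty (Fin n × Bool) := ⟨(⟨0, hn⟩, true)⟩
  have hφ : ∀ y : X, ‖-y‖ ^ p = ‖y‖ ^ p := fun y => by rw [norm_neg]
  have hφ0 : ∀ y : X, 0 ≤ ‖y‖ ^ p := fun y => Real.rpow_nonneg (norm_nonneg y) p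
  have hφ2 : ∀ y : X, ‖(2 : ℝ) • y‖ ^ p = 2 ^ p * ‖y‖ ^ p := fun y => by
    rw [norm_smul, Real.norm_eq_abs, abs_of_pos (by norm_num : (0 : ℝ) < 2),
      Real.mul_rpow (by norm_num) (norm_nonneg y)]
  have h1 := torusN_one_step e g hD (fun y : X => ‖y‖ ^ p) hφ x
  have h2 := torusN_two_step e g hD T hT (fun y : X => ‖y‖ ^ p) hφ hφ0 x
  simp only [hφ2] at h2
  rw [← Finset.mul_sum] at h2
  have hπsum : ∑ _z : Fin n → Z, ((Fintype.card Z : ℝ) ^ n)⁻¹ = 1 := by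
    rw [Finset.sum_const, Finset.card_univ, Fintype.card_fun, Fintype.card_fin, nsmul_eq_mul]
    push_cast
    field_simp
  have hPsymm : ∀ z z' : Fin n → Z, walk (stepsN n e) z z' = walk (stepsN n e) z' z :=
    walk_symm (stepsN n e) (stepSwapN n) (stepsN_stepSwapN n e)
  have key := hX (Fin n → Z) (fun _ => ((Fintype.card Z : ℝ) ^ n)⁻¹) (walk (stepsN n e))
    (fun _ => by positivity) hπsum (walk_nonneg (stepsN n e)) (walk_row_sum (stepsN n e))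
    (fun z z' => by rw [hPsymm]) (embN g x) 2 (by norm_num)
  have hcard : (Fintype.card (Fin n × Bool) : ℝ) = (n : ℝ) * 2 := by
    rw [Fintype.card_prod, Fintype.card_fin, Fintype.card_bool]
    push_cast
    ring
  have hL : ∀ i : Fin n → Z,
      ∑ j, ((Fintype.card Z : ℝ) ^ n)⁻¹ * (walk (stepsN n e) ^ 2) i j *
          ‖embN g x i - embN g x j‖ ^ p
        = ((Fintype.card Z : ℝ) ^ n)⁻¹ * (((n : ℝ) * 2)⁻¹ ^ 2 *
            ∑ s : Fin n × Bool, ∑ s' : Fin n × Bool,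
              ‖embN g x i - embN g x (i + stepsN n e s + stepsN n e s')‖ ^ p) := by
    intro i
    have h := walk_sq_sum_mul (stepsN n e) (fun j => ‖embN g x i - embN g x j‖ ^ p) i
    rw [hcard] at h
    rw [← h, Finset.mul_sum]
    exact Finset.sum_congr rfl (fun j _ => by ring)
  have hR : ∀ i : Fin n → Z,
      ∑ j, ((Fintype.card Z : ℝ) ^ n)⁻¹ * walk (stepsN n e) i j *
          ‖embN g x i - embN g x j‖ ^ p
        = ((Fintype.card Z : ℝ) ^ n)⁻¹ * (((n : ℝ) * 2)⁻¹ *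
            ∑ s : Fin n × Bool, ‖embN g x i - embN g x (i + stepsN n e s)‖ ^ p) := by
    intro i
    have h := walk_sum_mul (stepsN n e) (fun j => ‖embN g x i - embN g x j‖ ^ p) i
    rw [hcard] at h
    rw [← h, Finset.mul_sum]
    exact Finset.sum_congr rfl (fun j _ => by ring)
  simp only [hL, hR] at key
  rw [← Finset.mul_sum, ← Finset.mul_sum, ← Finset.mul_sum, ← Finset.mul_sum, h1] at key
  generalize ∑ z : Fin n → Z, ∑ s : Fin n × Bool, ∑ s' : Fin n × Bool,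
    ‖embN g x z - embN g x (z + stepsN n e s + stepsN n e s')‖ ^ p = S2 at key h2
  have hWpos : (0 : ℝ) < (Fintype.card Z : ℝ) ^ n := by positivity
  generalize (Fintype.card Z : ℝ) ^ n = W at hWpos key h2
  generalize (Fintype.card Z : ℝ) = N at hNpos h2 ⊢
  generalize ∑ i, ∑ j ∈ Finset.univ.erase i, (‖x i + x j‖ ^ p + ‖x i - x j‖ ^ p) = A at h2 ⊢
  generalize ∑ i, ‖x i‖ ^ p = B at key h2 ⊢
  generalize (2 : ℝ) ^ p = c at h2 ⊢
  generalize K ^ p = Kp at key ⊢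
  generalize (n : ℝ) = ν at hnpos key ⊢
  have key2 : S2 ≤ 8 * ν * Kp * W * B := by
    have e1 : W⁻¹ * ((ν * 2)⁻¹ ^ 2 * S2) = S2 / (4 * ν ^ 2 * W) := by
      field_simp
      ring
    have e2 : Kp * ((2 : ℕ) : ℝ) * (W⁻¹ * ((ν * 2)⁻¹ * (2 * W * B))) = 2 * Kp * B / ν := by
      push_cast
      field_simp
    rw [e1, e2, div_le_iff₀ (by positivity)] at key
    have e3 : 2 * Kp * B / ν * (4 * ν ^ 2 * W) = 8 * ν * Kp * W * B := by
      field_simp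
      ring
    linarith
  have h3 : 2 * W * A ≤ 2 * W * ((4 * ν * Kp - c * (1 - (T : ℝ) / N)) * B) := by
    have e4 : 2 * W * ((4 * ν * Kp - c * (1 - (T : ℝ) / N)) * B)
        = 8 * ν * Kp * W * B - 2 * W * (1 - (T : ℝ) / N) * (c * B) := by
      ring
    rw [e4]
    linarith
  exact le_of_mul_le_mul_left h3 (by positivity)

theorem mainN_m {p K : ℝ} (hX : MarkovType X p K) (m : ℕ) {n : ℕ} (hn : 0 < n)
    (x : Fin n → X) :
    ∑ i, ∑ j ∈ Finset.univ.erase i, (‖x i + x j‖ ^ p + ‖x i - x j‖ ^ p) ≤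
      (4 * (n : ℝ) * K ^ p - 2 ^ p * (1 - 1 / ((m : ℝ) + 1))) * ∑ i, ‖x i‖ ^ p := by
  have h := mainN_torus hX (1 : ZMod (2 * m + 2)) (tent m) (tent_step m) 2 (tent_turns m) hn x
  have hcard : (Fintype.card (ZMod (2 * m + 2)) : ℝ) = 2 * ((m : ℝ) + 1) := by
    rw [ZMod.card]
    push_cast
    ring
  rw [hcard] at h
  have h2 : ((2 : ℕ) : ℝ) / (2 * ((m : ℝ) + 1)) = 1 / ((m : ℝ) + 1) := by
    have hm1 : (0 : ℝ) < (m : ℝ) + 1 := by positivity
    push_cast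
    field_simp
  rw [h2] at h
  exact h

/-- If `X` has Markov type `p` with constant `K`, then for every `n` and `x : Fin n → X`:
`∑ i, ∑ j ≠ i, (‖x i + x j‖ ^ p + ‖x i - x j‖ ^ p) ≤ (4 * n * K ^ p - 2 ^ p) * ∑ i, ‖x i‖ ^ p`. -/
theorem mainN_ineq {p K : ℝ} (hX : MarkovType X p K) (n : ℕ) (x : Fin n → X) :
    ∑ i, ∑ j ∈ Finset.univ.erase i, (‖x i + x j‖ ^ p + ‖x i - x j‖ ^ p) ≤
      (4 * (n : ℝ) * K ^ p - 2 ^ p) * ∑ i, ‖x i‖ ^ p := by
  rcases Nat.eq_zero_or_pos n with h0 | hn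
  · subst h0
    simp
  have hB0 : 0 ≤ ∑ i, ‖x i‖ ^ p :=
    Finset.sum_nonneg (fun i _ => Real.rpow_nonneg (norm_nonneg (x i)) p)
  have hc : 0 ≤ (2 : ℝ) ^ p := Real.rpow_nonneg (by norm_num) _
  apply le_of_forall_pos_le_add
  intro ε hε
  obtain ⟨m, hm⟩ := exists_nat_gt ((2 : ℝ) ^ p * (∑ i, ‖x i‖ ^ p) / ε)
  have h := mainN_m hX m hn x
  generalize ∑ i, ∑ j ∈ Finset.univ.erase i, (‖x i + x j‖ ^ p + ‖x i - x j‖ ^ p) = A at h ⊢
  generalize ∑ i, ‖x i‖ ^ p = B at h hm hB0 ⊢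
  generalize (2 : ℝ) ^ p = c at h hm hc ⊢
  have hm1 : (0 : ℝ) < (m : ℝ) + 1 := by positivity
  have h4 : c * B / ((m : ℝ) + 1) ≤ ε := by
    rw [div_le_iff₀ hm1]
    have h5 : c * B < m * ε := by rwa [div_lt_iff₀ hε] at hm
    nlinarith
  have h6 : (4 * (n : ℝ) * K ^ p - c * (1 - 1 / ((m : ℝ) + 1))) * B
      = (4 * (n : ℝ) * K ^ p - c) * B + c * B / ((m : ℝ) + 1) := by
    field_simp
    ring
  linarith

/-- Markov type `p` with `K ^ p < 2 ^ (p - 1)` forces J-convexity. -/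
theorem mainN_jconvex {p K : ℝ} (hp : 0 < p) (hK0 : 0 ≤ K) (hX : MarkovType X p K)
    (hK : K ^ p < 2 ^ (p - 1)) :
    ∃ n : ℕ, 2 ≤ n ∧ ∃ ε > 0, ∀ x : Fin n → X, (∀ i, ‖x i‖ ≤ 1) →
      ∃ k : Fin n, ‖∑ l, (if l ≤ k then x l else -x l)‖ ≤ (n : ℝ) * (1 - ε) := by
  refine jconvex_of_pair_ineq hp (K ^ p) (Real.rpow_nonneg hK0 p) hK (fun n x => ?_)
  have h := mainN_ineq hX n x
  have hB0 : 0 ≤ ∑ i, ‖x i‖ ^ p :=
    Finset.sum_nonneg (fun i _ => Real.rpow_nonneg (norm_nonneg (x i)) p)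
  have hc : 0 ≤ (2 : ℝ) ^ p := Real.rpow_nonneg (by norm_num) _
  nlinarith [mul_nonneg hc hB0]

end Vale.Agent.H34.P125
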