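import Vale.Agent.H34.P125.NDisp

/-!
# P125, candidate B, row N2 (`NStraight.lean`): two steps in the same direction

By `embN_two_same` (black box) the displacement is `(g (z i) - g (z i + s + s)) • x i`,
`s = sgnStep e a`.  With `D k = g (k + e) - g k = ±1`:
`a = true`: `g k - g (k + e + e) = -(D k + D (k + e))`;
`a = false`: `g k - g (k + -e + -e) = D (k + -e) + D (k + -e + -e)`.
If `k` (resp. `k + -e + -e`) is not a turning point (`D (k + e) = D k`) the coefficient is `±2`
and the term is `φ (2 • x i)` (`φ` even); otherwise the term is `≥ 0`.  So for `F k := φ ((g k -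
g (k + s + s)) • x i)`: `∑ k, F k ≥ (card Z - T) * φ (2 • x i)` (the turning set has at most `T`
elements; for `a = false` reindex `k` by `Equiv.addRight (e + e)` or bound the image of the
turning set under the shift).
Marginalisation: `∑ z : Fin n → Z, F (z i) = (card Z) ^ (n - 1) * ∑ k, F k`, in the form
`card Z * ∑ z, F (z i) = (card Z) ^ n * ∑ k, F k`: `Fintype.sum_equiv (Equiv.funSplitAt i Z)`
then `Fintype.sum_prod_type`, `Finset.sum_const`, `Fintype.card_fun`,
`Fintype.card_subtype_compl` / `Fintype.card_subtype_eq`; or `Finset.prod_univ_sum` with the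
family `fun l k => if l = i then F k else 1`.  `card Z > 0` (the group has `0`).
Helper lemmas inside this file with the prefix `nStraight_`.
-/

namespace Vale.Agent.H34.P125

open scoped BigOperators

variable {Z : Type} [AddCommGroup Z] [Fintype Z] [DecidableEq Z]
variable {X : Type*} [AddCommGroup X] [Module ℝ X]

theorem nStraight_marg {n : ℕ} (F : Z → ℝ) (i : Fin n) :
    (Fintype.card Z : ℝ) * ∑ z : Fin n → Z, F (z i)
      = (Fintype.card Z : ℝ) ^ n * ∑ k : Z, F k := by
  have h1 : ∀ k : Z, ∑ z : Fin n → Z, F (z i + k) = ∑ z : Fin n → Z, F (z i) := by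
    intro k
    have h := Equiv.sum_comp (Equiv.addRight (Pi.single i k : Fin n → Z)) (fun z => F (z i))
    rw [← h]
    refine Finset.sum_congr rfl (fun z _ => ?_)
    simp
  have h2 : ∀ z : Fin n → Z, ∑ k : Z, F (z i + k) = ∑ k : Z, F k := by
    intro z
    exact Equiv.sum_comp (Equiv.addLeft (z i)) F
  calc (Fintype.card Z : ℝ) * ∑ z : Fin n → Z, F (z i)
      = ∑ k : Z, ∑ z : Fin n → Z, F (z i + k) := by
        rw [Finset.sum_congr rfl (fun k _ => h1 k), Finset.sum_const, Finset.card_univ,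
          nsmul_eq_mul]
    _ = ∑ z : Fin n → Z, ∑ k : Z, F (z i + k) := Finset.sum_comm
    _ = ∑ z : Fin n → Z, ∑ k : Z, F k := Finset.sum_congr rfl (fun z _ => h2 z)
    _ = (Fintype.card Z : ℝ) ^ n * ∑ k : Z, F k := by
        rw [Finset.sum_const, Finset.card_univ, Fintype.card_pi_const, nsmul_eq_mul]
        push_cast
        ring

theorem nStraight_sgn (e : Z) (g : Z → ℝ) (φ : X → ℝ) (hφ : ∀ y, φ (-y) = φ y) (y : X)
    (b : Bool) :
    ∑ k : Z, φ ((g k - g (k + sgnStep e b + sgnStep e b)) • y)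
      = ∑ k : Z, φ ((g (k + e + e) - g k) • y) := by
  have hst : sgnStep e true = e := by simp [sgnStep]
  have hsf : sgnStep e false = -e := by simp [sgnStep]
  cases b with
  | true =>
    rw [hst]
    refine Finset.sum_congr rfl (fun k _ => ?_)
    rw [← hφ, ← neg_smul, neg_sub]
  | false =>
    rw [hsf]
    rw [← Equiv.sum_comp (Equiv.addRight (e + e)) (fun k => φ ((g k - g (k + -e + -e)) • y))]
    refine Finset.sum_congr rfl (fun k _ => ?_)
    have h1 : k + (e + e) + -e + -e = k := by abel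
    have h2 : k + (e + e) = k + e + e := by abel
    show φ ((g (k + (e + e)) - g (k + (e + e) + -e + -e)) • y) = _
    rw [h1, h2]

theorem torusN_straight {n : ℕ} (e : Z) (g : Z → ℝ)
    (hD : ∀ k, g (k + e) - g k = 1 ∨ g (k + e) - g k = -1)
    (T : ℕ) (hT : ((Finset.univ : Finset Z).filter
      (fun k => g (k + e + e) - g (k + e) ≠ g (k + e) - g k)).card ≤ T)
    (φ : X → ℝ) (hφ : ∀ y, φ (-y) = φ y) (hφ0 : ∀ y, 0 ≤ φ y) (x : Fin n → X) (i : Fin n)
    (a : Bool) :
    (Fintype.card Z : ℝ) ^ n * (1 - (T : ℝ) / (Fintype.card Z : ℝ)) * φ ((2 : ℝ) • x i)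
      ≤ ∑ z : Fin n → Z,
          φ (embN g x z - embN g x (z + stepsN n e (i, a) + stepsN n e (i, a))) := by
  have hne : Nonempty Z := ⟨0⟩
  have hNpos : (0 : ℝ) < (Fintype.card Z : ℝ) := by exact_mod_cast Fintype.card_pos
  have hc0 : 0 ≤ φ ((2 : ℝ) • x i) := hφ0 _
  have hGk : ∀ k : Z, (if g (k + e + e) - g (k + e) ≠ g (k + e) - g k then 0
      else φ ((2 : ℝ) • x i)) ≤ φ ((g (k + e + e) - g k) • x i) := by
    intro k
    by_cases hk : g (k + e + e) - g (k + e) ≠ g (k + e) - g k
    · rw [if_pos hk]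
      exact hφ0 _
    · rw [if_neg hk]
      have hk' : g (k + e + e) - g (k + e) = g (k + e) - g k := not_not.mp hk
      rcases hD k with h1 | h1
      · have h2 : g (k + e + e) - g k = 2 := by linarith
        rw [h2]
      · have h2 : g (k + e + e) - g k = -2 := by linarith
        rw [h2, neg_smul, hφ]
  have hcard : (((Finset.univ : Finset Z).filter
      (fun k => g (k + e + e) - g (k + e) ≠ g (k + e) - g k)).card : ℝ) ≤ (T : ℝ) := by
    exact_mod_cast hT
  have hpt : ∀ k : Z, (if g (k + e + e) - g (k + e) ≠ g (k + e) - g k then 0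
      else φ ((2 : ℝ) • x i)) = φ ((2 : ℝ) • x i) -
        (if g (k + e + e) - g (k + e) ≠ g (k + e) - g k then φ ((2 : ℝ) • x i) else 0) := by
    intro k
    split_ifs <;> ring
  have hsum0 : ∑ k : Z, (if g (k + e + e) - g (k + e) ≠ g (k + e) - g k then 0
      else φ ((2 : ℝ) • x i)) = ((Fintype.card Z : ℝ) - (((Finset.univ : Finset Z).filter
        (fun k => g (k + e + e) - g (k + e) ≠ g (k + e) - g k)).card : ℝ)) *
          φ ((2 : ℝ) • x i) := by
    rw [Finset.sum_congr rfl (fun k _ => hpt k), Finset.sum_sub_distrib, Finset.sum_const,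
      Finset.card_univ, ← Finset.sum_filter, Finset.sum_const, nsmul_eq_mul, nsmul_eq_mul]
    ring
  have hsumG : ((Fintype.card Z : ℝ) - (T : ℝ)) * φ ((2 : ℝ) • x i)
      ≤ ∑ k : Z, φ ((g (k + e + e) - g k) • x i) := by
    calc ((Fintype.card Z : ℝ) - (T : ℝ)) * φ ((2 : ℝ) • x i)
        ≤ ((Fintype.card Z : ℝ) - (((Finset.univ : Finset Z).filter
          (fun k => g (k + e + e) - g (k + e) ≠ g (k + e) - g k)).card : ℝ)) *
            φ ((2 : ℝ) • x i) := by
          apply mul_le_mul_of_nonneg_right _ hc0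
          linarith
      _ = ∑ k : Z, (if g (k + e + e) - g (k + e) ≠ g (k + e) - g k then 0
            else φ ((2 : ℝ) • x i)) := hsum0.symm
      _ ≤ ∑ k : Z, φ ((g (k + e + e) - g k) • x i) :=
          Finset.sum_le_sum (fun k _ => hGk k)
  have hz : ∀ z : Fin n → Z,
      φ (embN g x z - embN g x (z + stepsN n e (i, a) + stepsN n e (i, a)))
        = φ ((g (z i) - g (z i + sgnStep e a + sgnStep e a)) • x i) := by
    intro z
    rw [embN_two_same]
  rw [Finset.sum_congr rfl (fun z _ => hz z)]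
  have hmarg := nStraight_marg (n := n)
    (fun k : Z => φ ((g k - g (k + sgnStep e a + sgnStep e a)) • x i)) i
  rw [nStraight_sgn e g φ hφ (x i) a] at hmarg
  have hpow : (0 : ℝ) ≤ (Fintype.card Z : ℝ) ^ n := pow_nonneg hNpos.le n
  have h3 : (Fintype.card Z : ℝ) ^ n * (((Fintype.card Z : ℝ) - (T : ℝ)) * φ ((2 : ℝ) • x i))
      ≤ (Fintype.card Z : ℝ) *
        ∑ z : Fin n → Z, φ ((g (z i) - g (z i + sgnStep e a + sgnStep e a)) • x i) := by
    rw [hmarg]
    exact mul_le_mul_of_nonneg_left hsumG hpow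
  have h4 : (Fintype.card Z : ℝ) ^ n * (1 - (T : ℝ) / (Fintype.card Z : ℝ)) * φ ((2 : ℝ) • x i)
      = ((Fintype.card Z : ℝ) ^ n *
        (((Fintype.card Z : ℝ) - (T : ℝ)) * φ ((2 : ℝ) • x i))) / (Fintype.card Z : ℝ) := by
    field_simp
  rw [h4, div_le_iff₀ hNpos]
  linarith [h3]

end Vale.Agent.H34.P125
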