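import Mathlib

/-!
# P125 (`TorusDefs.lean`): the torus walk and the embedding (definitions only, do not edit)
-/

namespace Vale.Agent.H34.P125

variable {Z : Type} [AddCommGroup Z]
variable {X : Type*} [AddCommGroup X] [Module ℝ X]

/-- The four steps of the simple random walk on the torus `Z × Z`. -/
def steps (e : Z) : Fin 4 → Z × Z := ![(e, 0), (-e, 0), (0, e), (0, -e)]

/-- The map `(k, l) ↦ g k • u + g l • v`. -/
def emb (g : Z → ℝ) (u v : X) (z : Z × Z) : X := g z.1 • u + g z.2 • v

end Vale.Agent.H34.P125
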